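import Crest.Statements.S0166
import Crest.Agent.Lib.AUC.TestSum
import Crest.Agent.Lib.AUC.DiamondLower

set_option autoImplicit false
open Crest Crest.AnalysisR

namespace Crest.Agent.S0166

open Crest.Agent.Lib.AUC

/-- There is a real Banach space (RealBanach record) that is separable, infinite-dimensional and reflexive, whose given norm has at every t > 0 averaged midpoint asymptotic modulus at least √(1 + t²/12) - 1 and at least (√(1 + t²/4) - 1)/2 and maximum-based midpoint modulus at least √(1 + t²/4) - 1, on which no equivalent norm is asymptotically uniformly convex, and in which for every k every map of the depth-k countably branching diamond graph of distortion at most D has 1 + k/4 ≤ D². -/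
theorem result :
    ∃ E : Crest.AnalysisR.RealBanach, E.IsSeparableInfiniteDim ∧ E.IsReflexive ∧
      (∀ t : ℝ, 0 < t → E.MidpointModulusGE E.norm t (Real.sqrt (1 + t ^ 2 / 12) - 1) ∧
        E.MidpointModulusGE E.norm t ((Real.sqrt (1 + t ^ 2 / 4) - 1) / 2) ∧
        E.MaxMidpointModulusGE E.norm t (Real.sqrt (1 + t ^ 2 / 4) - 1)) ∧
      (∀ N : E.X → ℝ, E.IsEquivNorm N → ¬ E.IsAUC N) ∧
      ∀ (k : ℕ) (f : Crest.AnalysisR.DiamondVertex k → E.X) (D : ℝ),
        E.HasDistortionLE k f D → 1 + (k : ℝ) / 4 ≤ D ^ 2 := by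
  refine ⟨bET, ⟨ET_separable, ET_not_fd⟩, ET_reflexive, fun t ht => ⟨?_, ?_, ?_⟩, ET_not_auc,
    diamond_distortion bET ET_midpoint⟩
  · intro x hx η hη
    obtain ⟨F, h1, h2, h3⟩ := ET_modulus t ht x hx η hη
    refine ⟨((F : Submodule ℝ ET) : Set ET), ⟨F, rfl, h1, h2⟩, fun y hy hy1 => ?_⟩
    have h4 := h3 y hy hy1
    have h5 : Real.sqrt (1 + t ^ 2 / 12) ≤ Real.sqrt (1 + t ^ 2 / 4) :=
      Real.sqrt_le_sqrt (by nlinarith [sq_nonneg t])
    exact le_trans (by linarith) h4
  · intro x hx η hη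
    obtain ⟨F, h1, h2, h3⟩ := ET_modulus t ht x hx η hη
    refine ⟨((F : Submodule ℝ ET) : Set ET), ⟨F, rfl, h1, h2⟩, fun y hy hy1 => ?_⟩
    have h4 := h3 y hy hy1
    have h5 : 1 ≤ Real.sqrt (1 + t ^ 2 / 4) :=
      Real.one_le_sqrt.2 (by nlinarith [sq_nonneg t])
    exact le_trans (by linarith) h4
  · intro (x : ET) hx η hη
    obtain ⟨F, h1, h2, h3⟩ := ET_modulus t ht x hx η hη
    refine ⟨((F : Submodule ℝ ET) : Set ET), ⟨F, rfl, h1, h2⟩, fun (y : ET) hy hy1 => ?_⟩
    have h4 := h3 y hy hy1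
    have h5 : (‖x + t • y‖ + ‖x - t • y‖) / 2 ≤ max ‖x + t • y‖ ‖x - t • y‖ := by
      have h6 := le_max_left ‖x + t • y‖ ‖x - t • y‖
      have h7 := le_max_right ‖x + t • y‖ ‖x - t • y‖
      linarith
    have h8 : Real.sqrt (1 + t ^ 2 / 4) - 1 - η ≤ max ‖x + t • y‖ ‖x - t • y‖ - 1 := by linarith
    exact h8

end Crest.Agent.S0166
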