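import Crest.Statements.S0167
import Crest.Agent.Lib.AUC.Daugavet

set_option autoImplicit false
open Crest Crest.AnalysisR

namespace Crest.Agent.S0167

open MeasureTheory Crest.AnalysisR.L1Subspace Crest.Agent.Lib.AUC

section helpers

variable {Ω : Type} [MeasurableSpace Ω] {P : Measure Ω} [IsProbabilityMeasure P]

lemma measurable_rsign : Measurable Real.sign := by
  unfold Real.sign
  refine Measurable.ite measurableSet_Iio measurable_const ?_
  exact Measurable.ite measurableSet_Ioi measurable_const measurable_const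

lemma abs_rsign_le (r : ℝ) : |Real.sign r| ≤ 1 := by
  rcases Real.sign_apply_eq r with h | h | h <;> rw [h] <;> norm_num

lemma sgn_integrable (g y : Lp ℝ 1 P) :
    Integrable (fun ω => Real.sign (g ω) * y ω) P := by
  refine (L1.integrable_coeFn y).bdd_mul (c := 1) ?_ ?_
  · exact (measurable_rsign.comp (Lp.stronglyMeasurable g).measurable).aestronglyMeasurable
  · exact Filter.Eventually.of_forall (fun ω => by
      rw [Real.norm_eq_abs]; exact abs_rsign_le _)

/-- Pairing with the sign of `g`. -/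
noncomputable def sgnF (g : Lp ℝ 1 P) : Lp ℝ 1 P →L[ℝ] ℝ :=
  LinearMap.mkContinuous
    { toFun := fun y => ∫ ω, Real.sign (g ω) * y ω ∂P
      map_add' := by
        intro y z
        rw [← integral_add (sgn_integrable g y) (sgn_integrable g z)]
        refine integral_congr_ae ?_
        filter_upwards [Lp.coeFn_add y z] with ω h
        rw [h, Pi.add_apply, mul_add]
      map_smul' := by
        intro c y
        simp only [RingHom.id_apply, smul_eq_mul]
        rw [← integral_const_mul]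
        refine integral_congr_ae ?_
        filter_upwards [Lp.coeFn_smul c y] with ω h
        rw [h, Pi.smul_apply, smul_eq_mul]
        ring }
    1 (by
      intro y
      simp only [LinearMap.coe_mk, AddHom.coe_mk, one_mul]
      rw [L1.norm_eq_integral_norm]
      refine (norm_integral_le_integral_norm _).trans ?_
      refine integral_mono_ae (sgn_integrable g y).norm (L1.integrable_coeFn y).norm ?_
      refine Filter.Eventually.of_forall (fun ω => ?_)
      simp only [norm_mul, Real.norm_eq_abs]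
      have := abs_rsign_le (g ω)
      nlinarith [abs_nonneg (y ω)])

lemma sgnF_apply (g y : Lp ℝ 1 P) : sgnF g y = ∫ ω, Real.sign (g ω) * y ω ∂P := rfl

/-- absolute continuity of the integral -/
lemma abs_cont (x : Lp ℝ 1 P) {η : ℝ} (hη : 0 < η) :
    ∃ ε : ℝ, 0 < ε ∧ ∀ A : Set Ω, P A < ENNReal.ofReal ε → ∫ ω in A, |x ω| ∂P < η := by
  have hfin : ∫⁻ ω, ‖x ω‖ₑ ∂P ≠ ⊤ := (L1.integrable_coeFn x).2.ne
  obtain ⟨δ, hδ, h⟩ := exists_pos_setLIntegral_lt_of_measure_lt hfin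
    (ε := ENNReal.ofReal η) (by simpa using hη)
  refine ⟨(min δ 1).toReal, ENNReal.toReal_pos (by simpa using hδ.ne') (by simp), ?_⟩
  intro A hA
  have hA' : P A < δ := by
    rw [ENNReal.ofReal_toReal (by simp)] at hA
    exact lt_of_lt_of_le hA (min_le_left _ _)
  have h1 := h A hA'
  have h2 : ∫ ω in A, |x ω| ∂P = (∫⁻ ω in A, ‖x ω‖ₑ ∂P).toReal := by
    have := integral_norm_eq_lintegral_enorm (f := fun ω => x ω) (μ := P.restrict A)
      (Lp.stronglyMeasurable x).aestronglyMeasurable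
    simpa [Real.norm_eq_abs] using this
  rw [h2]
  exact ENNReal.toReal_lt_of_lt_ofReal h1

lemma sign_pointwise {u v a : ℝ} (ha : 0 ≤ a) (h : |u - v| ≤ a) :
    |u| - 2 * a ≤ Real.sign v * u := by
  rw [abs_le] at h
  rcases lt_trichotomy v 0 with hv | hv | hv
  · rw [Real.sign_of_neg hv]
    rcases le_total u 0 with hu | hu
    · rw [abs_of_nonpos hu]; linarith
    · rw [abs_of_nonneg hu]; linarith
  · rw [hv, Real.sign_zero]
    subst hv
    have : |u| ≤ a := by rw [abs_le]; constructor <;> linarith [h.1, h.2]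
    linarith
  · rw [Real.sign_of_pos hv]
    rcases le_total u 0 with hu | hu
    · rw [abs_of_nonpos hu]; linarith
    · rw [abs_of_nonneg hu]; linarith

/-- The mass of a vector orthogonal to `sign g` outside the set where it is close to `g`. -/
lemma mass_on_bad (y g : Lp ℝ 1 P) {a : ℝ} (ha : 0 < a) (hy : ‖y‖ = 1)
    (horth : sgnF g y = 0) :
    1 / 2 - a ≤ ∫ ω in {ω | a < |y ω - g ω|}, |y ω| ∂P := by
  set A : Set Ω := {ω | a < |y ω - g ω|} with hA
  have hmeas : MeasurableSet A := by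
    refine measurableSet_lt measurable_const ?_
    exact ((Lp.stronglyMeasurable y).measurable.sub (Lp.stronglyMeasurable g).measurable).abs
  have hiy : Integrable (fun ω => |y ω|) P := (L1.integrable_coeFn y).abs
  have his := sgn_integrable g y
  have h0 : ∫ ω in A, Real.sign (g ω) * y ω ∂P + ∫ ω in Aᶜ, Real.sign (g ω) * y ω ∂P = 0 := by
    rw [integral_add_compl hmeas his]
    exact horth
  have h1 : -∫ ω in A, |y ω| ∂P ≤ ∫ ω in A, Real.sign (g ω) * y ω ∂P := by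
    rw [← integral_neg]
    refine setIntegral_mono hiy.neg.integrableOn his.integrableOn (fun ω => ?_)
    have h2 := abs_rsign_le (g ω)
    have h3 : |Real.sign (g ω) * y ω| ≤ |y ω| := by
      rw [abs_mul]; nlinarith [abs_nonneg (y ω)]
    exact (abs_le.1 h3).1
  have h2 : ∫ ω in Aᶜ, (|y ω| - 2 * a) ∂P ≤ ∫ ω in Aᶜ, Real.sign (g ω) * y ω ∂P := by
    refine setIntegral_mono_on ((hiy.sub (integrable_const _)).integrableOn) his.integrableOn
      hmeas.compl (fun ω hω => ?_)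
    have : |y ω - g ω| ≤ a := not_lt.1 hω
    exact sign_pointwise ha.le this
  have h3 : ∫ ω in Aᶜ, (|y ω| - 2 * a) ∂P = ∫ ω in Aᶜ, |y ω| ∂P - 2 * a * (P Aᶜ).toReal := by
    rw [integral_sub hiy.integrableOn (integrable_const _)]
    simp [measureReal_def, mul_comm]
  have h4 : (P Aᶜ).toReal ≤ 1 := by
    have : P Aᶜ ≤ 1 := prob_le_one
    exact ENNReal.toReal_le_of_le_ofReal zero_le_one (by simpa using this)
  have h5 : ∫ ω in A, |y ω| ∂P + ∫ ω in Aᶜ, |y ω| ∂P = 1 := by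
    rw [integral_add_compl hmeas hiy, ← hy, L1.norm_eq_integral_norm]
    simp [Real.norm_eq_abs]
  have h6 : 2 * a * (P Aᶜ).toReal ≤ 2 * a := by nlinarith
  linarith

lemma norm_add_smul_eq (x y : Lp ℝ 1 P) (t : ℝ) :
    ‖x + t • y‖ = ∫ ω, |x ω + t * y ω| ∂P := by
  rw [L1.norm_eq_integral_norm]
  refine integral_congr_ae ?_
  filter_upwards [Lp.coeFn_add x (t • y), Lp.coeFn_smul t y] with ω h1 h2
  rw [h1, Pi.add_apply, h2, Pi.smul_apply, smul_eq_mul, Real.norm_eq_abs]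

lemma norm_sub_smul_eq (x y : Lp ℝ 1 P) (t : ℝ) :
    ‖x - t • y‖ = ∫ ω, |x ω - t * y ω| ∂P := by
  rw [L1.norm_eq_integral_norm]
  refine integral_congr_ae ?_
  filter_upwards [Lp.coeFn_sub x (t • y), Lp.coeFn_smul t y] with ω h1 h2
  rw [h1, Pi.sub_apply, h2, Pi.smul_apply, smul_eq_mul, Real.norm_eq_abs]

/-- The lower estimate for the symmetric norm sum. -/
lemma sum_lower (x y : Lp ℝ 1 P) {t : ℝ} (ht : 0 < t) (A : Set Ω) (hmeas : MeasurableSet A) :
    2 * ∫ ω in Aᶜ, |x ω| ∂P + 2 * t * ∫ ω in A, |y ω| ∂P ≤ ‖x + t • y‖ + ‖x - t • y‖ := by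
  rw [norm_add_smul_eq, norm_sub_smul_eq]
  have hix := L1.integrable_coeFn x
  have hiy := L1.integrable_coeFn y
  have hi1 : Integrable (fun ω => |x ω + t * y ω|) P := (hix.add (hiy.const_mul t)).abs
  have hi2 : Integrable (fun ω => |x ω - t * y ω|) P := (hix.sub (hiy.const_mul t)).abs
  have hI : Integrable (fun ω => |x ω + t * y ω| + |x ω - t * y ω|) P := hi1.add hi2
  rw [← integral_add hi1 hi2, ← integral_add_compl hmeas hI]
  have hA : 2 * t * ∫ ω in A, |y ω| ∂P ≤ ∫ ω in A, (|x ω + t * y ω| + |x ω - t * y ω|) ∂P := by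
    rw [← integral_const_mul]
    refine setIntegral_mono (hiy.abs.const_mul _).integrableOn hI.integrableOn
      (fun ω => ?_)
    have : |(x ω + t * y ω) - (x ω - t * y ω)| ≤ |x ω + t * y ω| + |x ω - t * y ω| :=
      abs_sub _ _
    have h2 : (x ω + t * y ω) - (x ω - t * y ω) = 2 * t * y ω := by ring
    rw [h2, abs_mul, abs_of_pos (by positivity : (0:ℝ) < 2 * t)] at this
    exact this
  have hB : 2 * ∫ ω in Aᶜ, |x ω| ∂P ≤ ∫ ω in Aᶜ, (|x ω + t * y ω| + |x ω - t * y ω|) ∂P := by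
    rw [← integral_const_mul]
    refine setIntegral_mono (hix.abs.const_mul _).integrableOn hI.integrableOn
      (fun ω => ?_)
    have : |(x ω + t * y ω) + (x ω - t * y ω)| ≤ |x ω + t * y ω| + |x ω - t * y ω| :=
      abs_add_le _ _
    have h2 : (x ω + t * y ω) + (x ω - t * y ω) = 2 * x ω := by ring
    rw [h2, abs_mul, abs_of_pos (by norm_num : (0:ℝ) < 2)] at this
    exact this
  linarith

lemma exists_of_measureDist_lt (f g : Lp ℝ 1 P) {ε : ℝ} (h : measureDist P f g < ε) :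
    ∃ a, 0 < a ∧ a < ε ∧ P {z | a < |f z - g z|} < ENNReal.ofReal a := by
  have hne : {a : ℝ | 0 < a ∧ P {z | a < |f z - g z|} < ENNReal.ofReal a}.Nonempty := by
    refine ⟨2, by norm_num, ?_⟩
    have h1 : P {z | (2 : ℝ) < |f z - g z|} ≤ 1 := prob_le_one
    have h2 : (1 : ENNReal) < ENNReal.ofReal 2 := by
      rw [← ENNReal.ofReal_one]
      exact (ENNReal.ofReal_lt_ofReal_iff (by norm_num)).2 (by norm_num)
    exact lt_of_le_of_lt h1 h2
  obtain ⟨a, ha, hlt⟩ := exists_lt_of_csInf_lt hne h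
  exact ⟨a, ha.1, hlt, ha.2⟩

variable (E : Submodule ℝ (Lp ℝ 1 P))

/-- Lower bound of the midpoint quantity by `t / 2`. -/
lemma midpoint_ge (htb : UnitBallTotallyBoundedInMeasure P E) {t : ℝ} (ht : 0 < t) (x : E)
    (hx : ‖x‖ = 1) {η : ℝ} (hη : 0 < η) :
    ∃ S : Submodule ℝ E, IsClosed (S : Set E) ∧ FiniteDimensional ℝ (E ⧸ S) ∧
      ∀ y ∈ S, ‖y‖ = 1 → t / 2 - η ≤ (‖x + t • y‖ + ‖x - t • y‖) / 2 - 1 := by
  obtain ⟨ε₁, hε₁, habs⟩ := abs_cont (x : Lp ℝ 1 P) (by positivity : 0 < η / 2)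
  set ε : ℝ := min ε₁ (η / (2 * t)) with hε
  have hεpos : 0 < ε := lt_min hε₁ (by positivity)
  obtain ⟨s, hs1, hs2⟩ := htb ε hεpos
  let φ : s → (E →L[ℝ] ℝ) := fun g => (sgnF (g : Lp ℝ 1 P)).comp E.subtypeL
  obtain ⟨S, hScl, hSfd, hS⟩ := exists_cof_of_functionals φ
  refine ⟨S, hScl, hSfd, fun y hyS hy => ?_⟩
  have hy' : ‖(y : Lp ℝ 1 P)‖ = 1 := hy
  obtain ⟨g, hg, hgd⟩ := hs2 (y : Lp ℝ 1 P) y.2 hy'.le
  obtain ⟨a, ha, haε, hPA⟩ := exists_of_measureDist_lt _ _ hgd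
  have horth : sgnF g (y : Lp ℝ 1 P) = 0 := (hS y).1 hyS ⟨g, hg⟩
  have hmass := mass_on_bad (y : Lp ℝ 1 P) g ha hy' horth
  set A : Set Ω := {ω | a < |(y : Lp ℝ 1 P) ω - g ω|} with hA
  have hmeas : MeasurableSet A := by
    refine measurableSet_lt measurable_const ?_
    exact ((Lp.stronglyMeasurable _).measurable.sub (Lp.stronglyMeasurable g).measurable).abs
  have hPA' : P A < ENNReal.ofReal ε₁ :=
    lt_of_lt_of_le hPA (ENNReal.ofReal_le_ofReal (haε.le.trans (min_le_left _ _)))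
  have hsmall := habs A hPA'
  have hsum := sum_lower (x : Lp ℝ 1 P) (y : Lp ℝ 1 P) ht A hmeas
  have hx1 : ∫ ω in A, |(x : Lp ℝ 1 P) ω| ∂P + ∫ ω in Aᶜ, |(x : Lp ℝ 1 P) ω| ∂P = 1 := by
    rw [integral_add_compl hmeas (L1.integrable_coeFn _).abs]
    have : ‖(x : Lp ℝ 1 P)‖ = 1 := hx
    rw [← this, L1.norm_eq_integral_norm]
    simp [Real.norm_eq_abs]
  have hta : t * a ≤ η / 2 := by
    have : a ≤ η / (2 * t) := haε.le.trans (min_le_right _ _)
    calc t * a ≤ t * (η / (2 * t)) := by gcongr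
      _ = η / 2 := by field_simp
  have hn1 : ‖x + t • y‖ = ‖(x : Lp ℝ 1 P) + t • (y : Lp ℝ 1 P)‖ := rfl
  have hn2 : ‖x - t • y‖ = ‖(x : Lp ℝ 1 P) - t • (y : Lp ℝ 1 P)‖ := rfl
  rw [hn1, hn2]
  have h7 : t * (1 / 2 - a) ≤ t * ∫ ω in A, |(y : Lp ℝ 1 P) ω| ∂P := by gcongr
  nlinarith

end helpers

/-- Let E be an infinite-dimensional closed subspace of the real L¹ of a probability space whose closed unit ball is totally bounded for convergence in measure and whose norm has the Daugavet property. Then at every unit x ∈ E and every t > 0 the averaged midpoint quantity sup_F inf_y ((‖x+ty‖+‖x-ty‖)/2 - 1) equals max(t/2, t-1) and the one-sided one sup_F inf_y (‖x+ty‖ - 1) equals max(0, t-2), as matching lower and upper bounds, and E admits no equivalent asymptotically uniformly convex norm. -/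
theorem result (Ω : Type) [MeasurableSpace Ω] (P : MeasureTheory.Measure Ω) [MeasureTheory.IsProbabilityMeasure P]
    (E : Submodule ℝ (MeasureTheory.Lp ℝ 1 P)) (hcl : IsClosed (E : Set (MeasureTheory.Lp ℝ 1 P)))
    (hinf : ¬ FiniteDimensional ℝ E)
    (htb : Crest.AnalysisR.L1Subspace.UnitBallTotallyBoundedInMeasure P E)
    (hD : Crest.AnalysisR.L1Subspace.HasDaugavetProperty E) :
    (∀ t : ℝ, 0 < t →
      (Crest.AnalysisR.L1Subspace.toRealBanach P E hcl).MidpointModulusGE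
          (Crest.AnalysisR.L1Subspace.toRealBanach P E hcl).norm t (max (t / 2) (t - 1)) ∧
        (Crest.AnalysisR.L1Subspace.toRealBanach P E hcl).MidpointModulusLE
          (Crest.AnalysisR.L1Subspace.toRealBanach P E hcl).norm t (max (t / 2) (t - 1)) ∧
        (Crest.AnalysisR.L1Subspace.toRealBanach P E hcl).OneSidedModulusGE
          (Crest.AnalysisR.L1Subspace.toRealBanach P E hcl).norm t (max 0 (t - 2)) ∧
        (Crest.AnalysisR.L1Subspace.toRealBanach P E hcl).OneSidedModulusLE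
          (Crest.AnalysisR.L1Subspace.toRealBanach P E hcl).norm t (max 0 (t - 2))) ∧
      ∀ N : E → ℝ, (Crest.AnalysisR.L1Subspace.toRealBanach P E hcl).IsEquivNorm N →
        ¬ (Crest.AnalysisR.L1Subspace.toRealBanach P E hcl).IsAUC N := by
  have hMidGE : ∀ t : ℝ, 0 < t → ∀ x : E, ‖x‖ = 1 → ∀ η : ℝ, 0 < η →
      ∃ S : Submodule ℝ E, IsClosed (S : Set E) ∧ FiniteDimensional ℝ (E ⧸ S) ∧
      ∀ y ∈ S, ‖y‖ = 1 → max (t / 2) (t - 1) - η ≤ (‖x + t • y‖ + ‖x - t • y‖) / 2 - 1 := by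
    intro t ht x hx η hη
    obtain ⟨S, h1, h2, h3⟩ := midpoint_ge E htb ht x hx hη
    refine ⟨S, h1, h2, fun y hy hny => ?_⟩
    have h4 := h3 y hy hny
    have h5 : 2 * t ≤ ‖x + t • y‖ + ‖x - t • y‖ := by
      have h6 : (2 * t) • y = (x + t • y) - (x - t • y) := by
        rw [two_mul, add_smul]; abel
      have h7 : ‖(2 * t) • y‖ = 2 * t := by
        rw [norm_smul, hny, mul_one, Real.norm_of_nonneg (by positivity)]
      rw [← h7, h6]
      exact norm_sub_le _ _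
    rcases max_choice (t / 2) (t - 1) with h | h <;> rw [h]
    · exact h4
    · linarith
  have hOneGE : ∀ t : ℝ, 0 < t → ∀ x : E, ‖x‖ = 1 → ∀ η : ℝ, 0 < η →
      ∃ S : Submodule ℝ E, IsClosed (S : Set E) ∧ FiniteDimensional ℝ (E ⧸ S) ∧
      ∀ y ∈ S, ‖y‖ = 1 → max 0 (t - 2) - η ≤ ‖x + t • y‖ - 1 := by
    intro t ht x hx η hη
    obtain ⟨φ, hφ1, hφ2⟩ := exists_dual_vector ℝ x (by rw [hx]; norm_num)
    obtain ⟨S, h1, h2, h3⟩ := exists_cof_of_functionals (fun _ : Unit => φ)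
    refine ⟨S, h1, h2, fun y hy hny => ?_⟩
    have h4 : φ y = 0 := (h3 y).1 hy ()
    have h5 : 1 ≤ ‖x + t • y‖ := by
      have h6 := φ.le_opNorm (x + t • y)
      rw [hφ1, one_mul, map_add, map_smul, h4, hφ2, hx, smul_zero, add_zero] at h6
      have h7 : ‖(1 : ℝ)‖ = 1 := norm_one
      rw [show (‖x + t • y‖) = ‖x + t • y‖ from rfl]
      simpa using h6
    have h8 : t - 1 ≤ ‖x + t • y‖ := by
      have h9 : ‖t • y‖ = t := by rw [norm_smul, hny, mul_one, Real.norm_of_nonneg ht.le]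
      have h10 : t • y = (x + t • y) - x := by abel
      have h11 : ‖t • y‖ ≤ ‖x + t • y‖ + ‖x‖ := by
        conv_lhs => rw [h10]
        exact norm_sub_le _ _
      rw [h9, hx] at h11
      linarith
    rcases max_choice 0 (t - 2) with h | h <;> rw [h] <;> linarith
  have hMidLE : ∀ t : ℝ, 0 < t → ∀ x : E, ‖x‖ = 1 → ∀ S : Submodule ℝ E, IsClosed (S : Set E) →
      FiniteDimensional ℝ (E ⧸ S) → ∀ η : ℝ, 0 < η → ∃ y ∈ S, ‖y‖ = 1 ∧
        (‖x + t • y‖ + ‖x - t • y‖) / 2 - 1 ≤ max (t / 2) (t - 1) + η := by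
    intro t ht x hx S h1 h2 η hη
    obtain ⟨y, hy, hny, h3, h4⟩ := exists_good_y hD ht x hx S h1 h2 hη
    refine ⟨y, hy, hny, ?_⟩
    rcases le_total t 2 with h | h
    · rw [max_eq_left (by linarith)] at h3
      rw [max_eq_left (by linarith)]
      linarith
    · rw [max_eq_right (by linarith)] at h3
      rw [max_eq_right (by linarith)]
      linarith
  have hOneLE : ∀ t : ℝ, 0 < t → ∀ x : E, ‖x‖ = 1 → ∀ S : Submodule ℝ E, IsClosed (S : Set E) →
      FiniteDimensional ℝ (E ⧸ S) → ∀ η : ℝ, 0 < η → ∃ y ∈ S, ‖y‖ = 1 ∧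
        ‖x + t • y‖ - 1 ≤ max 0 (t - 2) + η := by
    intro t ht x hx S h1 h2 η hη
    obtain ⟨y, hy, hny, h3, h4⟩ := exists_good_y hD ht x hx S h1 h2 hη
    refine ⟨y, hy, hny, ?_⟩
    rcases le_total t 2 with h | h
    · rw [max_eq_left (by linarith)] at h3
      rw [max_eq_left (by linarith)]
      linarith
    · rw [max_eq_right (by linarith)] at h3
      rw [max_eq_right (by linarith)]
      linarith
  refine ⟨fun t ht => ⟨?_, ?_, ?_, ?_⟩, ?_⟩
  · intro x hx η hη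
    obtain ⟨S, h1, h2, h3⟩ := hMidGE t ht x hx η hη
    exact ⟨(S : Set E), ⟨S, rfl, h1, h2⟩, h3⟩
  · intro x hx F hF η hη
    obtain ⟨S, rfl, h1, h2⟩ := hF
    obtain ⟨y, hy, hny, h3⟩ := hMidLE t ht x hx S h1 h2 η hη
    exact ⟨y, hy, hny, h3⟩
  · intro x hx η hη
    obtain ⟨S, h1, h2, h3⟩ := hOneGE t ht x hx η hη
    exact ⟨(S : Set E), ⟨S, rfl, h1, h2⟩, h3⟩
  · intro x hx F hF η hη
    obtain ⟨S, rfl, h1, h2⟩ := hF
    obtain ⟨y, hy, hny, h3⟩ := hOneLE t ht x hx S h1 h2 η hη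
    exact ⟨y, hy, hny, h3⟩
  · have htree : ∀ L : ℕ, ∃ 𝒯 : ℕ → Set E, (∃ x ∈ 𝒯 0, (1 / 3 : ℝ) ≤ ‖x‖) ∧
      (∀ j, ∀ x ∈ 𝒯 j, ‖x‖ ≤ 1) ∧
      ∀ j, j < L → ∀ x ∈ 𝒯 j, ∀ S : Submodule ℝ E, IsClosed (S : Set E) →
        FiniteDimensional ℝ (E ⧸ S) → ∀ δ : ℝ, 0 < δ →
          ∃ y, (1 / 3 : ℝ) ≤ ‖y‖ ∧ x + y ∈ 𝒯 (j + 1) ∧ ∃ s ∈ S, ‖y - s‖ < δ := by
      intro L
      refine ⟨fun _ => {x : E | ‖x‖ ≤ 1}, ?_, fun _ _ h => h, ?_⟩
      · haveI : Nontrivial E := daugavet_nontrivial hD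
        obtain ⟨e, he⟩ := exists_norm_eq E (zero_le_one)
        exact ⟨e, he.le, by rw [he]; norm_num⟩
      · intro j _ x hx S hScl hfd δ hδ
        obtain ⟨y, h1, h2, h3⟩ := daugavet_tree_step hD x hx S hScl hfd hδ
        exact ⟨y, h1, h2, h3⟩
    exact realBanach_not_auc (toRealBanach P E hcl) 1 (1 / 3) (by norm_num) htree

end Crest.Agent.S0167
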