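import Crest.Statements.S0168
import Crest.Agent.Lib.AUC.Basic
import Crest.Agent.Lib.AUC.Potential

set_option autoImplicit false
open Crest Crest.AnalysisR

namespace Crest.Agent.S0168

open Crest.AnalysisR.TreePotential Crest.Agent.Lib.AUC

section helper

variable (m : PotentialModel)

/-- evaluation of a finitely supported array against a coefficient family -/
noncomputable abbrev ev (f : List ℕ → ℝ) : (List ℕ →₀ ℝ) →ₗ[ℝ] ℝ :=
  Finsupp.linearCombination ℝ f

lemma ev_congr {f g : List ℕ → ℝ} {c : List ℕ →₀ ℝ} (h : ∀ s ∈ c.support, f s = g s) :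
    ev f c = ev g c := by
  simp only [ev, Finsupp.linearCombination_apply, Finsupp.sum]
  exact Finset.sum_congr rfl (fun s hs => by rw [h s hs])

lemma ev_smul (a : ℝ) (f : List ℕ → ℝ) (c : List ℕ →₀ ℝ) :
    ev (fun s => a * f s) c = a * ev f c := by
  simp only [ev, Finsupp.linearCombination_apply, Finsupp.sum, smul_eq_mul, Finset.mul_sum]
  exact Finset.sum_congr rfl (fun s _ => by ring)

lemma ev_sub' (f g : List ℕ → ℝ) (c : List ℕ →₀ ℝ) :
    ev (fun s => f s - g s) c = ev f c - ev g c := by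
  simp only [ev, Finsupp.linearCombination_apply, Finsupp.sum, smul_eq_mul, ← Finset.sum_sub_distrib]
  exact Finset.sum_congr rfl (fun s _ => by ring)

/-- the vector of an array -/
noncomputable def vec : (List ℕ →₀ ℝ) →ₗ[ℝ] lp (fun _ : PotentialTest m => ℝ) ⊤ :=
  Finsupp.linearCombination ℝ (coordVector m)

lemma vec_apply (c : List ℕ →₀ ℝ) (f : PotentialTest m) :
    (vec m c : PotentialTest m → ℝ) f = ev f.1 c := by
  simp only [vec, ev, Finsupp.linearCombination_apply, Finsupp.sum]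
  rw [lp.coeFn_sum, Finset.sum_apply]
  refine Finset.sum_congr rfl (fun s _ => ?_)
  rw [lp.coeFn_smul]
  rfl

lemma vec_mem (c : List ℕ →₀ ℝ) : vec m c ∈ modelSpace m := by
  apply Submodule.le_topologicalClosure
  exact (Finsupp.mem_span_range_iff_exists_finsupp).2 ⟨c, rfl⟩

lemma exists_vec_close (x : lp (fun _ : PotentialTest m => ℝ) ⊤) (hx : x ∈ modelSpace m)
    {ε : ℝ} (hε : 0 < ε) : ∃ c, ‖x - vec m c‖ < ε := by
  have hx' : x ∈ closure ((Submodule.span ℝ (Set.range (coordVector m)) : Submodule ℝ _) : Set _) := by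
    have := hx
    rwa [modelSpace, ← SetLike.mem_coe, Submodule.topologicalClosure_coe] at this
  obtain ⟨b, hb, hd⟩ := Metric.mem_closure_iff.1 hx' ε hε
  obtain ⟨c, rfl⟩ := (Finsupp.mem_span_range_iff_exists_finsupp).1 (SetLike.mem_coe.1 hb)
  refine ⟨c, ?_⟩
  rw [dist_eq_norm] at hd
  exact hd

/-- coordinate test -/
def delta (s : List ℕ) : List ℕ → ℝ := fun u => if u = s then 1 else 0

lemma pathPotential_delta (s v : List ℕ) :
    pathPotential (delta s) v = if s <:+ v then 1 else 0 := by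
  induction v with
  | nil =>
    simp only [pathPotential, delta]
    by_cases h : s = []
    · subst h; simp
    · have h1 : ¬ s <:+ [] := by simpa [List.suffix_nil] using h
      rw [if_neg h1, if_neg (Ne.symm h)]
  | cons a v ih =>
    simp only [pathPotential, ih, delta]
    by_cases h : s <:+ v
    · have h1 : s ≠ a :: v := fun e => by
        subst e
        have := h.length_le
        simp at this
      have h2 : s <:+ a :: v := h.trans (List.suffix_cons a v)
      rw [if_pos h, if_pos h2, if_neg (Ne.symm h1)]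
      ring
    · by_cases h3 : s = a :: v
      · subst h3
        simp only [if_neg h, List.suffix_refl, if_true]
        ring
      · have h2 : ¬ s <:+ a :: v := by
          rw [List.suffix_cons_iff]
          tauto
        rw [if_neg h, if_neg h2, if_neg (Ne.symm h3)]
        ring

lemma extra_of_global (f : List ℕ → ℝ) (h1 : ∀ A : Finset (List ℕ), ∑ u ∈ A, f u ^ 2 ≤ 1)
    (h2 : (Function.support f).Finite) (h3 : m = .rootlessSibling → f [] = 0) :
    ExtraCondition m f := by
  have hsib : ∀ (r : List ℕ) (A : Finset ℕ), ∑ n ∈ A, f (n :: r) ^ 2 ≤ 1 := by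
    intro r A
    have := h1 (A.image (fun n => n :: r))
    rwa [Finset.sum_image (fun a _ b _ h => (List.cons.inj h).1)] at this
  cases m with
  | rootlessSibling => exact ⟨h3 rfl, hsib⟩
  | rootedSibling => exact hsib
  | antichain => exact ⟨h2, fun A _ => h1 A⟩
  | global => exact h1

variable {m}

lemma extra_sib {f : List ℕ → ℝ} (h : ExtraCondition m f) (r : List ℕ) (A : Finset ℕ) :
    ∑ n ∈ A, f (n :: r) ^ 2 ≤ 1 := by
  cases m with
  | rootlessSibling => exact h.2 r A
  | rootedSibling => exact h r A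
  | antichain =>
    have hanti : IsTreeAntichain (A.image (fun n => n :: r)) := by
      intro u hu v hv huv hs
      obtain ⟨a, -, rfl⟩ := Finset.mem_image.1 hu
      obtain ⟨b, -, rfl⟩ := Finset.mem_image.1 hv
      exact huv (hs.eq_of_length (by simp))
    have := h.2 _ hanti
    rwa [Finset.sum_image (fun a _ b _ h => (List.cons.inj h).1)] at this
  | global =>
    have := h (A.image (fun n => n :: r))
    rwa [Finset.sum_image (fun a _ b _ h => (List.cons.inj h).1)] at this

lemma extra_of_dominated {f g h : List ℕ → ℝ} {α β : ℝ} (hf : ExtraCondition m f)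
    (hg : ExtraCondition m g) (hab : α ^ 2 + β ^ 2 ≤ 1)
    (hd : ∀ s, h s ^ 2 ≤ α ^ 2 * f s ^ 2 + β ^ 2 * g s ^ 2) : ExtraCondition m h := by
  have key : ∀ {ι : Type} (A : Finset ι) (φ : ι → List ℕ), ∑ i ∈ A, f (φ i) ^ 2 ≤ 1 →
      ∑ i ∈ A, g (φ i) ^ 2 ≤ 1 → ∑ i ∈ A, h (φ i) ^ 2 ≤ 1 := by
    intro ι A φ h1 h2
    calc ∑ i ∈ A, h (φ i) ^ 2 ≤ ∑ i ∈ A, (α ^ 2 * f (φ i) ^ 2 + β ^ 2 * g (φ i) ^ 2) :=
          Finset.sum_le_sum (fun i _ => hd _)
      _ = α ^ 2 * ∑ i ∈ A, f (φ i) ^ 2 + β ^ 2 * ∑ i ∈ A, g (φ i) ^ 2 := by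
          rw [Finset.sum_add_distrib, Finset.mul_sum, Finset.mul_sum]
      _ ≤ α ^ 2 * 1 + β ^ 2 * 1 := by gcongr
      _ ≤ 1 := by linarith
  cases m with
  | rootlessSibling =>
    refine ⟨?_, fun r A => key A (fun n => n :: r) (hf.2 r A) (hg.2 r A)⟩
    have h0 := hd []
    rw [hf.1, hg.1] at h0
    have h1 : h [] ^ 2 ≤ 0 := by simpa using h0
    exact pow_eq_zero_iff (two_ne_zero) |>.1 (le_antisymm h1 (sq_nonneg _))
  | rootedSibling => exact fun r A => key A _ (hf r A) (hg r A)
  | antichain =>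
    refine ⟨(hf.1.union hg.1).subset ?_, fun A hA => key A id (hf.2 A hA) (hg.2 A hA)⟩
    intro s hs
    by_contra hn
    simp only [Set.mem_union, Function.mem_support, not_or, not_not] at hn
    have h0 := hd s
    rw [hn.1, hn.2] at h0
    have h1 : h s ^ 2 ≤ 0 := by simpa using h0
    exact hs (pow_eq_zero_iff (two_ne_zero) |>.1 (le_antisymm h1 (sq_nonneg _)))
  | global => exact fun A => key A id (hf A) (hg A)

variable (m)

/-- the zero test -/
def zeroT : PotentialTest m := ⟨fun _ => 0, by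
  constructor
  · intro s
    have : pathPotential (fun _ => (0 : ℝ)) s = 0 := by
      induction s with
      | nil => rfl
      | cons a v ih => simp [pathPotential, ih]
    rw [this]; simp
  · refine extra_of_global m _ (fun A => by simp) (by simp) (fun _ => rfl)⟩

instance : Nonempty (PotentialTest m) := ⟨zeroT m⟩

variable {m}

/-- the negated test -/
def negT (f : PotentialTest m) : PotentialTest m := ⟨fun s => - f.1 s, by
  constructor
  · intro s
    have : pathPotential (fun s => - f.1 s) s = - pathPotential f.1 s := by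
      induction s with
      | nil => rfl
      | cons a v ih => simp only [pathPotential, ih]; ring
    rw [this, abs_neg]
    exact f.2.1 s
  · refine extra_of_dominated (α := 1) (β := 0) f.2.2 f.2.2 (by norm_num) (fun s => ?_)
    simp⟩

lemma ev_negT (f : PotentialTest m) (c : List ℕ →₀ ℝ) : ev (negT f).1 c = - ev f.1 c := by
  have : (negT f).1 = fun s => (-1) * f.1 s := by
    funext s
    simp [negT]
  rw [this, ev_smul]
  ring

/-- The key supremum lemma. -/
lemma mul_norm_le_of_forall (z : List ℕ →₀ ℝ) {α B : ℝ} (hα : 0 ≤ α)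
    (h : ∀ f : PotentialTest m, α * ev f.1 z ≤ B) : α * ‖vec m z‖ ≤ B := by
  rcases hα.eq_or_lt with rfl | hpos
  · have := h (zeroT m)
    simpa using this
  · have h1 : ‖vec m z‖ ≤ B / α := by
      refine lp.norm_le_of_forall_le' (B / α) ?_
      intro f
      rw [vec_apply, Real.norm_eq_abs, abs_le]
      constructor
      · rw [neg_le, le_div_iff₀ hpos]
        have := h (negT f)
        rw [ev_negT] at this
        nlinarith
      · rw [le_div_iff₀ hpos]
        have := h f
        nlinarith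
    rw [le_div_iff₀ hpos] at h1
    linarith

lemma ev_le_norm (z : List ℕ →₀ ℝ) (f : PotentialTest m) : ev f.1 z ≤ ‖vec m z‖ := by
  rw [← vec_apply]
  have := lp.norm_apply_le_norm (p := ⊤) (by simp) (vec m z) f
  exact (le_abs_self _).trans this

/-- the merged tests -/
lemma merged_testA (Sf : Finset (List ℕ)) (h0 : [] ∈ Sf) (hS : ∀ a v, (a :: v) ∈ Sf → v ∈ Sf)
    (f g : PotentialTest m) (α β : ℝ) (hab : α ^ 2 + β ^ 2 ≤ 1) :
    IsTest m (coefOf (mergedA (· ∈ Sf) f.1 g.1 α β)) := by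
  have hα : |α| ≤ 1 := by
    rw [← sq_le_one_iff_abs_le_one]
    nlinarith [sq_nonneg β]
  have hβ : |β| ≤ 1 := by
    rw [← sq_le_one_iff_abs_le_one]
    nlinarith [sq_nonneg α]
  constructor
  · intro s
    rw [pathPotential_coefOf]
    exact mergedA_bound _ _ _ _ hα hβ (f.2.1 _) (g.2.1 _) (g.2.1 _)
  · exact extra_of_dominated f.2.2 g.2.2 hab (coefA_sq_le h0 hS f.1 g.1 α β)

lemma merged_testB (Sf : Finset (List ℕ)) (h0 : [] ∈ Sf) (hS : ∀ a v, (a :: v) ∈ Sf → v ∈ Sf)
    (f g : PotentialTest m) (α β : ℝ) (hab : α ^ 2 + β ^ 2 ≤ 1) :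
    IsTest m (coefOf (mergedB (· ∈ Sf) f.1 g.1 α β)) := by
  have hα : |α| ≤ 1 := by
    rw [← sq_le_one_iff_abs_le_one]
    nlinarith [sq_nonneg β]
  have hβ : |β| ≤ 1 := by
    rw [← sq_le_one_iff_abs_le_one]
    nlinarith [sq_nonneg α]
  constructor
  · intro s
    rw [pathPotential_coefOf]
    exact mergedB_bound _ _ _ _ hα hβ (f.2.1 _) (g.2.1 _) (g.2.1 _)
  · exact extra_of_dominated f.2.2 g.2.2 hab (coefB_sq_le h0 hS f.1 g.1 α β)

/-- the key local inequality -/
lemma KL (Sf : Finset (List ℕ)) (h0 : [] ∈ Sf) (hS : ∀ a v, (a :: v) ∈ Sf → v ∈ Sf)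
    (c c' d : List ℕ →₀ ℝ) (hc : ∀ s ∈ c.support, s ∈ Sf) (hc' : ∀ s ∈ c'.support, s ∈ Sf)
    (hd : ∀ s ∈ d.support, s ∉ Sf) (α β : ℝ) (hα : 0 ≤ α) (hβ : 0 ≤ β)
    (hab : α ^ 2 + β ^ 2 ≤ 1) :
    α * ‖vec m (c + c')‖ + β * ‖vec m d‖ ≤ ‖vec m (c + d)‖ + ‖vec m (c' - d)‖ := by
  have main : ∀ f g : PotentialTest m, α * ev f.1 (c + c') + β * ev g.1 d
      ≤ ‖vec m (c + d)‖ + ‖vec m (c' - d)‖ := by
    intro f g
    have hA := merged_testA Sf h0 hS f g α β hab
    have hB := merged_testB Sf h0 hS f g α β hab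
    have h1 := ev_le_norm (m := m) (c + d) ⟨_, hA⟩
    have h2 := ev_le_norm (m := m) (c' - d) ⟨_, hB⟩
    simp only at h1 h2
    rw [map_add] at h1
    rw [map_sub] at h2
    have h3 : ev (coefOf (mergedA (· ∈ Sf) f.1 g.1 α β)) c = α * ev f.1 c := by
      rw [← ev_smul]
      exact ev_congr (fun s hs => coefA_of_mem h0 hS f.1 g.1 α β (hc s hs))
    have h4 : ev (coefOf (mergedB (· ∈ Sf) f.1 g.1 α β)) c' = α * ev f.1 c' := by
      rw [← ev_smul]
      exact ev_congr (fun s hs => coefB_of_mem h0 hS f.1 g.1 α β (hc' s hs))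
    have h5 : ev (coefOf (mergedA (· ∈ Sf) f.1 g.1 α β)) d
        - ev (coefOf (mergedB (· ∈ Sf) f.1 g.1 α β)) d = β * ev g.1 d := by
      rw [← ev_smul, ← ev_sub']
      exact ev_congr (fun s hs => coef_sub_of_not h0 f.1 g.1 α β (hd s hs))
    rw [map_add]
    have h6 : ev (coefOf (mergedA (· ∈ Sf) f.1 g.1 α β)) c +
        ev (coefOf (mergedA (· ∈ Sf) f.1 g.1 α β)) d +
        (ev (coefOf (mergedB (· ∈ Sf) f.1 g.1 α β)) c' -
        ev (coefOf (mergedB (· ∈ Sf) f.1 g.1 α β)) d)
        = α * (ev f.1 c + ev f.1 c') + β * ev g.1 d := by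
      rw [h3, h4, ← h5]
      ring
    linarith
  have h1 : ∀ f : PotentialTest m, β * ‖vec m d‖ ≤
      ‖vec m (c + d)‖ + ‖vec m (c' - d)‖ - α * ev f.1 (c + c') := by
    intro f
    refine mul_norm_le_of_forall d hβ (fun g => ?_)
    have := main f g
    linarith
  have h2 : α * ‖vec m (c + c')‖ ≤ ‖vec m (c + d)‖ + ‖vec m (c' - d)‖ - β * ‖vec m d‖ := by
    refine mul_norm_le_of_forall (c + c') hα (fun f => ?_)
    have := h1 f
    linarith
  linarith

lemma KL_sqrt (Sf : Finset (List ℕ)) (h0 : [] ∈ Sf) (hS : ∀ a v, (a :: v) ∈ Sf → v ∈ Sf)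
    (c d : List ℕ →₀ ℝ) (hc : ∀ s ∈ c.support, s ∈ Sf) (hd : ∀ s ∈ d.support, s ∉ Sf) :
    Real.sqrt (‖vec m c‖ ^ 2 + ‖vec m d‖ ^ 2 / 4) ≤ (‖vec m (c + d)‖ + ‖vec m (c - d)‖) / 2 := by
  set R := Real.sqrt (‖vec m c‖ ^ 2 + ‖vec m d‖ ^ 2 / 4) with hRdef
  have hR0 : 0 ≤ R := Real.sqrt_nonneg _
  rcases hR0.eq_or_lt with hR | hRpos
  · rw [← hR]; positivity
  have hR2 : R ^ 2 = ‖vec m c‖ ^ 2 + ‖vec m d‖ ^ 2 / 4 := Real.sq_sqrt (by positivity)
  have hab : (‖vec m c‖ / R) ^ 2 + ((‖vec m d‖ / 2) / R) ^ 2 ≤ 1 := by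
    have : (‖vec m c‖ / R) ^ 2 + ((‖vec m d‖ / 2) / R) ^ 2
        = (‖vec m c‖ ^ 2 + ‖vec m d‖ ^ 2 / 4) / R ^ 2 := by
      field_simp
      ring
    rw [this, hR2.symm, div_self (by positivity)]
  have key := KL (m := m) Sf h0 hS c c d hc hc hd (‖vec m c‖ / R) ((‖vec m d‖ / 2) / R)
    (by positivity) (by positivity) hab
  have h2 : ‖vec m (c + c)‖ = 2 * ‖vec m c‖ := by
    rw [map_add, ← two_smul ℝ, norm_smul]
    simp
  rw [h2] at key
  have h3 : ‖vec m c‖ / R * (2 * ‖vec m c‖) + (‖vec m d‖ / 2) / R * ‖vec m d‖ = 2 * R := by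
    have : ‖vec m c‖ / R * (2 * ‖vec m c‖) + (‖vec m d‖ / 2) / R * ‖vec m d‖
        = 2 * (‖vec m c‖ ^ 2 + ‖vec m d‖ ^ 2 / 4) / R := by
      field_simp
      ring
    rw [this, ← hR2]
    field_simp
  linarith

/-- coordinate vectors are bounded by two -/
lemma norm_coord_le (s : List ℕ) : ‖coordVector m s‖ ≤ 2 := by
  refine lp.norm_le_of_forall_le (by norm_num) (fun f => ?_)
  show |f.1 s| ≤ 2
  cases s with
  | nil =>
    have h0 := f.2.1 []
    simp only [pathPotential] at h0
    linarith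
  | cons a v =>
    have h1 := f.2.1 (a :: v)
    have h2 := f.2.1 v
    simp only [pathPotential] at h1
    rw [abs_le] at h1 h2 ⊢
    constructor <;> linarith [h1.1, h1.2, h2.1, h2.2]

lemma delta_extra_global (s : List ℕ) (A : Finset (List ℕ)) : ∑ u ∈ A, delta s u ^ 2 ≤ 1 := by
  have : ∀ u, delta s u ^ 2 = if u = s then 1 else 0 := by
    intro u
    simp only [delta]
    split_ifs <;> simp
  simp only [this, Finset.sum_ite_eq']
  split_ifs <;> norm_num

lemma delta_support (s : List ℕ) : (Function.support (delta s)).Finite := by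
  refine (Set.finite_singleton s).subset (fun u hu => ?_)
  by_contra hne
  exact hu (by simp [delta, Set.mem_singleton_iff.not.1 hne])

lemma delta_test_of_ne {s : List ℕ} (hs : s ≠ [] ∨ m ≠ .rootlessSibling) :
    IsTest m (delta s) := by
  constructor
  · intro v
    rw [pathPotential_delta]
    split_ifs <;> simp
  · refine extra_of_global m _ (delta_extra_global s) (delta_support s) (fun hm => ?_)
    simp only [delta]
    rcases hs with hs | hs
    · rw [if_neg (Ne.symm hs)]
    · exact absurd hm hs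

lemma delta_test_or_zero (s : List ℕ) : IsTest m (delta s) ∨ coordVector m s = 0 := by
  by_cases h : s ≠ [] ∨ m ≠ .rootlessSibling
  · exact Or.inl (delta_test_of_ne h)
  · push_neg at h
    obtain ⟨rfl, rfl⟩ := h
    right
    ext f
    exact f.2.2.1

lemma ev_delta (s : List ℕ) (c : List ℕ →₀ ℝ) : ev (delta s) c = c s := by
  simp only [ev, Finsupp.linearCombination_apply, Finsupp.sum, delta, smul_eq_mul, mul_ite, mul_one,
    mul_zero, Finset.sum_ite_eq', Finsupp.mem_support_iff]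
  split_ifs with h
  · rfl
  · exact (not_not.1 h).symm

/-- non-root coordinates have norm at least one -/
lemma one_le_norm_coord {s : List ℕ} (hs : s ≠ []) : 1 ≤ ‖coordVector m s‖ := by
  have h := lp.norm_apply_le_norm (p := ⊤) (by simp) (coordVector m s)
    ⟨delta s, delta_test_of_ne (Or.inl hs)⟩
  have h1 : (coordVector m s : PotentialTest m → ℝ) ⟨delta s, delta_test_of_ne (Or.inl hs)⟩ = 1 := by
    show delta s s = 1
    simp [delta]
  rw [h1] at h
  simpa using h

/-- sibling sums have square-root growth -/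
lemma norm_sum_sibling (r : List ℕ) (A : Finset ℕ) :
    ‖∑ n ∈ A, coordVector m (n :: r)‖ ≤ 1 * Real.sqrt A.card := by
  refine lp.norm_le_of_forall_le (by positivity) (fun f => ?_)
  rw [lp.coeFn_sum, Finset.sum_apply, one_mul, Real.norm_eq_abs]
  show |∑ n ∈ A, f.1 (n :: r)| ≤ Real.sqrt A.card
  apply Real.abs_le_sqrt
  calc (∑ n ∈ A, f.1 (n :: r)) ^ 2 ≤ (A.card : ℝ) * ∑ n ∈ A, f.1 (n :: r) ^ 2 :=
        sq_sum_le_card_mul_sum_sq
    _ ≤ (A.card : ℝ) * 1 := by
        gcongr
        exact extra_sib f.2.2 r A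
    _ = A.card := mul_one _

/-- path vectors -/
noncomputable def bv : List ℕ → lp (fun _ : PotentialTest m => ℝ) ⊤
  | [] => 0
  | a :: v => bv v + coordVector m (a :: v)

lemma bv_apply (v : List ℕ) (f : PotentialTest m) :
    (bv (m := m) v : PotentialTest m → ℝ) f = pathPotential f.1 v - f.1 [] := by
  induction v with
  | nil =>
    simp [bv, pathPotential]
  | cons a v ih =>
    simp only [bv, pathPotential, lp.coeFn_add, Pi.add_apply, ih]
    show _ + f.1 (a :: v) = _
    ring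

lemma bv_mem (v : List ℕ) : bv (m := m) v ∈ modelSpace m := by
  induction v with
  | nil => exact Submodule.zero_mem _
  | cons a v ih =>
    refine Submodule.add_mem _ ih ?_
    apply Submodule.le_topologicalClosure
    exact Submodule.subset_span ⟨_, rfl⟩

lemma norm_bv_le (v : List ℕ) : ‖bv (m := m) v‖ ≤ 2 := by
  refine lp.norm_le_of_forall_le (by norm_num) (fun f => ?_)
  rw [bv_apply, Real.norm_eq_abs]
  have h1 := f.2.1 v
  have h2 := f.2.1 []
  simp only [pathPotential] at h2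
  rw [abs_le] at h1 h2 ⊢
  constructor <;> linarith [h1.1, h1.2, h2.1, h2.2]

/-- elements of the space: coordinates -/
noncomputable def ec (m : PotentialModel) (s : List ℕ) : modelSpace m :=
  ⟨coordVector m s, by
    apply Submodule.le_topologicalClosure
    exact Submodule.subset_span ⟨_, rfl⟩⟩

lemma separable_space : TopologicalSpace.SeparableSpace (modelSpace m) := by
  have h1 : TopologicalSpace.IsSeparable (Set.range (coordVector m)) :=
    (Set.countable_range _).isSeparable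
  have h2 := h1.span (R := ℝ)
  have h3 := h2.closure
  have h4 : TopologicalSpace.IsSeparable
      (↑(modelSpace m) : Set (lp (fun _ : PotentialTest m => ℝ) ⊤)) := by
    rw [modelSpace, Submodule.topologicalClosure_coe]
    exact h3
  exact h4.separableSpace

lemma not_fd : ¬ FiniteDimensional ℝ (modelSpace m) := by
  intro hfd
  have hcl : IsClosed ((⊥ : Submodule ℝ (modelSpace m)) : Set (modelSpace m)) := by simp
  have hfd' : FiniteDimensional ℝ (modelSpace m ⧸ (⊥ : Submodule ℝ (modelSpace m))) := inferInstance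
  have hK : ∀ A : Finset ℕ, ‖∑ n ∈ A, ec m (n :: [])‖ ≤ 1 * Real.sqrt A.card := by
    intro A
    rw [Submodule.coe_norm, Submodule.coe_sum]
    exact norm_sum_sibling [] A
  obtain ⟨n, s, hs, hlt⟩ := exists_near_of_sublinear
    (⊥ : Submodule ℝ (modelSpace m)) hcl hfd' (fun n => ec m (n :: [])) 2 1
    (fun n => norm_coord_le _) hK (one_pos)
  rw [Submodule.mem_bot] at hs
  subst hs
  rw [sub_zero, Submodule.coe_norm] at hlt
  exact absurd hlt (not_lt.2 (one_le_norm_coord (List.cons_ne_nil _ _)))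

lemma sub_app (a b : lp (fun _ : PotentialTest m => ℝ) ⊤) (f : PotentialTest m) :
    ((a - b : lp (fun _ : PotentialTest m => ℝ) ⊤) : PotentialTest m → ℝ) f
      = (a : PotentialTest m → ℝ) f - (b : PotentialTest m → ℝ) f := rfl

/-- dropping the coordinates on a finite set -/
lemma exists_off (Sf : Finset (List ℕ)) (y : lp (fun _ : PotentialTest m => ℝ) ⊤)
    (hy : y ∈ modelSpace m)
    (hzero : ∀ s ∈ Sf, ∀ h : IsTest m (delta s), (y : PotentialTest m → ℝ) ⟨delta s, h⟩ = 0)
    {ε : ℝ} (hε : 0 < ε) :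
    ∃ d : List ℕ →₀ ℝ, (∀ s ∈ d.support, s ∉ Sf) ∧ ‖y - vec m d‖ < ε := by
  set ε' : ℝ := ε / (1 + 2 * Sf.card) with hε'
  have hpos : (0 : ℝ) < 1 + 2 * Sf.card := by positivity
  have hε'pos : 0 < ε' := div_pos hε hpos
  obtain ⟨d₀, hd₀⟩ := exists_vec_close (m := m) y hy hε'pos
  classical
  have hsmall : ∀ s ∈ Sf, ‖d₀ s • coordVector m s‖ ≤ 2 * ε' := by
    intro s hs
    rcases delta_test_or_zero (m := m) s with h | h
    · have h1 : ‖(y : PotentialTest m → ℝ) ⟨delta s, h⟩
          - (vec m d₀ : PotentialTest m → ℝ) ⟨delta s, h⟩‖ ≤ ‖y - vec m d₀‖ :=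
        lp.norm_apply_le_norm (p := ⊤) (by simp) (y - vec m d₀) ⟨delta s, h⟩
      rw [hzero s hs h, vec_apply, ev_delta, zero_sub, norm_neg] at h1
      rw [norm_smul]
      have h2 := norm_coord_le (m := m) s
      have h3 : ‖d₀ s‖ ≤ ε' := h1.trans hd₀.le
      nlinarith [norm_nonneg (d₀ s), norm_nonneg (coordVector m s)]
    · rw [h, smul_zero, norm_zero]
      positivity
  let p : List ℕ → Prop := fun s => s ∈ Sf
  refine ⟨d₀.filter (fun s => ¬ p s), ?_, ?_⟩
  · intro s hs
    rw [Finsupp.support_filter] at hs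
    exact (Finset.mem_filter.1 hs).2
  · have hdec : vec m d₀ = vec m (d₀.filter p) + vec m (d₀.filter (fun s => ¬ p s)) := by
      rw [← map_add, Finsupp.filter_pos_add_filter_neg]
    have hbound : ‖vec m (d₀.filter p)‖ ≤ (2 * Sf.card) * ε' := by
      simp only [vec, Finsupp.linearCombination_apply, Finsupp.sum]
      have hsub : (d₀.filter p).support ⊆ Sf := by
        intro s hs
        rw [Finsupp.support_filter] at hs
        exact (Finset.mem_filter.1 hs).2
      calc ‖∑ s ∈ (d₀.filter p).support, (d₀.filter p) s • coordVector m s‖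
          ≤ ∑ s ∈ (d₀.filter p).support, ‖(d₀.filter p) s • coordVector m s‖ := norm_sum_le _ _
        _ ≤ ∑ _s ∈ Sf, 2 * ε' := by
            refine (Finset.sum_le_sum (g := fun _ => 2 * ε') (fun s hs => ?_)).trans
              (Finset.sum_le_sum_of_subset_of_nonneg hsub (fun _ _ _ => by positivity))
            have hsS := hsub hs
            rw [Finsupp.filter_apply_pos p _ hsS]
            exact hsmall s hsS
        _ = (2 * Sf.card) * ε' := by
            rw [Finset.sum_const, nsmul_eq_mul]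
            ring
    have heq : y - vec m (d₀.filter (fun s => ¬ p s)) = (y - vec m d₀) + vec m (d₀.filter p) := by
      rw [hdec]
      abel
    rw [heq]
    calc _ ≤ ‖y - vec m d₀‖ + ‖vec m (d₀.filter p)‖ := norm_add_le _ _
      _ < ε' + (2 * Sf.card) * ε' := by linarith
      _ = ε := by
          rw [hε']
          field_simp

lemma midpoint_aux (t : ℝ) (ht : 0 < t) (x : modelSpace m) (hx : ‖x‖ = 1) (η : ℝ) (hη : 0 < η) :
    ∃ S : Submodule ℝ (modelSpace m), IsClosed (S : Set (modelSpace m)) ∧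
      FiniteDimensional ℝ (modelSpace m ⧸ S) ∧
      ∀ y ∈ S, ‖y‖ = 1 →
        Real.sqrt (1 + t ^ 2 / 4) - 1 - η ≤ (‖x + t • y‖ + ‖x - t • y‖) / 2 - 1 := by
  classical
  set W := Real.sqrt (1 + t ^ 2 / 4) with hW
  have hW0 : 0 ≤ W := Real.sqrt_nonneg _
  set ε : ℝ := min (1 / 2) (η / (W + 1 + t)) with hε
  have hεpos : 0 < ε := lt_min (by norm_num) (by positivity)
  have hε1 : ε ≤ 1 / 2 := min_le_left _ _
  have hε2 : ε * (W + 1 + t) ≤ η := by
    have : ε ≤ η / (W + 1 + t) := min_le_right _ _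
    rwa [le_div_iff₀ (by positivity)] at this
  obtain ⟨c, hc⟩ := exists_vec_close (m := m) x.1 x.2 hεpos
  set Sf := sufClose c.support with hSf
  have h0 : [] ∈ Sf := nil_mem_sufClose _
  have hS : ∀ a v, (a :: v) ∈ Sf → v ∈ Sf := sufClose_tail _
  have hcS : ∀ s ∈ c.support, s ∈ Sf := subset_sufClose _
  set A := Sf.filter (fun s => IsTest m (delta s)) with hA
  let φ : A → (modelSpace m →L[ℝ] ℝ) := fun i =>
    LinearMap.mkContinuous
      { toFun := fun z : modelSpace m =>
          (z.1 : PotentialTest m → ℝ) ⟨delta i.1, (Finset.mem_filter.1 i.2).2⟩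
        map_add' := fun a b => rfl
        map_smul' := fun a b => rfl } 1 (fun z => by
          rw [one_mul]
          exact lp.norm_apply_le_norm (p := ⊤) (by simp) z.1 _)
  obtain ⟨S, hScl, hSfd, hSmem⟩ := exists_cof_of_functionals φ
  refine ⟨S, hScl, hSfd, fun y hy hy1 => ?_⟩
  have hzero : ∀ s ∈ Sf, ∀ h : IsTest m (delta s),
      (y.1 : PotentialTest m → ℝ) ⟨delta s, h⟩ = 0 := by
    intro s hs h
    have hmem : s ∈ A := Finset.mem_filter.2 ⟨hs, h⟩
    exact (hSmem y).1 hy ⟨s, hmem⟩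
  obtain ⟨d, hdS, hd⟩ := exists_off Sf y.1 y.2 hzero hεpos
  have hdd : ∀ s ∈ (t • d).support, s ∉ Sf := by
    intro s hs
    refine hdS s ?_
    rw [Finsupp.mem_support_iff] at hs ⊢
    intro h0'
    apply hs
    simp [h0']
  have key := KL_sqrt (m := m) Sf h0 hS c (t • d) hcS hdd
  have hvd : ‖vec m (t • d)‖ = t * ‖vec m d‖ := by
    rw [map_smul, norm_smul, Real.norm_of_nonneg ht.le]
  have hx' : ‖x.1‖ = 1 := hx
  have hy' : ‖y.1‖ = 1 := hy1
  have hcl : 1 - ε ≤ ‖vec m c‖ := by
    have := norm_sub_norm_le x.1 (vec m c)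
    linarith
  have hdl : 1 - ε ≤ ‖vec m d‖ := by
    have := norm_sub_norm_le y.1 (vec m d)
    linarith
  have hεn : 0 ≤ 1 - ε := by linarith
  -- lower bound for the square root
  have hR : (1 - ε) * W ≤ Real.sqrt (‖vec m c‖ ^ 2 + ‖vec m (t • d)‖ ^ 2 / 4) := by
    have h1 : (1 - ε) * W = Real.sqrt ((1 - ε) ^ 2 * (1 + t ^ 2 / 4)) := by
      rw [Real.sqrt_mul (sq_nonneg _), Real.sqrt_sq hεn]
    rw [h1]
    apply Real.sqrt_le_sqrt
    rw [hvd]
    have h2 : (1 - ε) ^ 2 ≤ ‖vec m c‖ ^ 2 := by gcongr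
    have h3 : (t * (1 - ε)) ^ 2 ≤ (t * ‖vec m d‖) ^ 2 := by gcongr
    nlinarith
  -- comparison of the norms
  have hplus : ‖vec m (c + t • d)‖ ≤ ‖x + t • y‖ + ε + t * ε := by
    have h1 : vec m (c + t • d) = ((x + t • y : modelSpace m) : lp (fun _ : PotentialTest m => ℝ) ⊤)
        - (x.1 - vec m c) - t • (y.1 - vec m d) := by
      rw [map_add, map_smul, Submodule.coe_add, Submodule.coe_smul, smul_sub]
      abel
    rw [h1]
    have h2 : ‖t • (y.1 - vec m d)‖ ≤ t * ε := by
      rw [norm_smul, Real.norm_of_nonneg ht.le]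
      gcongr
    have h3 : ‖((x + t • y : modelSpace m) : lp (fun _ : PotentialTest m => ℝ) ⊤)‖ = ‖x + t • y‖ := rfl
    calc _ ≤ ‖((x + t • y : modelSpace m) : lp (fun _ : PotentialTest m => ℝ) ⊤) - (x.1 - vec m c)‖
          + ‖t • (y.1 - vec m d)‖ := norm_sub_le _ _
      _ ≤ ‖((x + t • y : modelSpace m) : lp (fun _ : PotentialTest m => ℝ) ⊤)‖ + ‖x.1 - vec m c‖
          + ‖t • (y.1 - vec m d)‖ := by gcongr; exact norm_sub_le _ _
      _ ≤ _ := by rw [h3]; linarith
  have hminus : ‖vec m (c - t • d)‖ ≤ ‖x - t • y‖ + ε + t * ε := by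
    have h1 : vec m (c - t • d) = ((x - t • y : modelSpace m) : lp (fun _ : PotentialTest m => ℝ) ⊤)
        - (x.1 - vec m c) + t • (y.1 - vec m d) := by
      rw [map_sub, map_smul, Submodule.coe_sub, Submodule.coe_smul, smul_sub]
      abel
    rw [h1]
    have h2 : ‖t • (y.1 - vec m d)‖ ≤ t * ε := by
      rw [norm_smul, Real.norm_of_nonneg ht.le]
      gcongr
    have h3 : ‖((x - t • y : modelSpace m) : lp (fun _ : PotentialTest m => ℝ) ⊤)‖ = ‖x - t • y‖ := rfl
    calc _ ≤ ‖((x - t • y : modelSpace m) : lp (fun _ : PotentialTest m => ℝ) ⊤) - (x.1 - vec m c)‖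
          + ‖t • (y.1 - vec m d)‖ := norm_add_le _ _
      _ ≤ ‖((x - t • y : modelSpace m) : lp (fun _ : PotentialTest m => ℝ) ⊤)‖ + ‖x.1 - vec m c‖
          + ‖t • (y.1 - vec m d)‖ := by gcongr; exact norm_sub_le _ _
      _ ≤ _ := by rw [h3]; linarith
  nlinarith

end helper

/-- For each of the four bounded-potential coordinate models on the countably branching tree (rootless sibling, rooted sibling, antichain, global), the generated space, namely the closure of the span of the coordinate vectors in the supremum norm over the model's tests, is separable and infinite-dimensional, its norm has at every unit centre and every 0 < t < 1 averaged midpoint asymptotic quantity at least √(1 + t²/4) - 1, and no equivalent norm on it is asymptotically uniformly convex. -/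
theorem result
    (m : Crest.AnalysisR.TreePotential.PotentialModel) :
    (Crest.AnalysisR.TreePotential.modelBanach m).IsSeparableInfiniteDim ∧
      (∀ t : ℝ, 0 < t → t < 1 →
        (Crest.AnalysisR.TreePotential.modelBanach m).MidpointModulusGE
          (Crest.AnalysisR.TreePotential.modelBanach m).norm t (Real.sqrt (1 + t ^ 2 / 4) - 1)) ∧
      ∀ N : (Crest.AnalysisR.TreePotential.modelBanach m).X → ℝ,
        (Crest.AnalysisR.TreePotential.modelBanach m).IsEquivNorm N →
          ¬ (Crest.AnalysisR.TreePotential.modelBanach m).IsAUC N := by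
  refine ⟨⟨separable_space, not_fd⟩, ?_, ?_⟩
  · intro t ht _ x hx η hη
    obtain ⟨S, h1, h2, h3⟩ := midpoint_aux t ht x hx η hη
    refine ⟨((S : Submodule ℝ (modelSpace m)) : Set (modelSpace m)), ⟨S, rfl, h1, h2⟩, ?_⟩
    intro y hy hy1
    exact h3 y hy hy1
  · have htree : ∀ L : ℕ, ∃ 𝒯 : ℕ → Set (modelSpace m),
        (∃ x ∈ 𝒯 0, (1 : ℝ) ≤ ‖x‖) ∧ (∀ j, ∀ x ∈ 𝒯 j, ‖x‖ ≤ 2) ∧
        ∀ j, j < L → ∀ x ∈ 𝒯 j, ∀ S : Submodule ℝ (modelSpace m),
          IsClosed (S : Set (modelSpace m)) →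
          FiniteDimensional ℝ (modelSpace m ⧸ S) → ∀ δ : ℝ, 0 < δ →
            ∃ y, (1 : ℝ) ≤ ‖y‖ ∧ x + y ∈ 𝒯 (j + 1) ∧ ∃ s ∈ S, ‖y - s‖ < δ := by
      intro L
      refine ⟨fun _ => {x | ∃ v, x = (⟨bv v, bv_mem v⟩ : modelSpace m)},
        ⟨⟨bv [0], bv_mem [0]⟩, ⟨[0], rfl⟩, ?_⟩, ?_, ?_⟩
      · have : bv (m := m) [0] = coordVector m [0] := by simp [bv]
        show 1 ≤ ‖bv (m := m) [0]‖
        rw [this]
        exact one_le_norm_coord (by simp)
      · rintro j x ⟨v, rfl⟩
        exact norm_bv_le v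
      · rintro j - x ⟨r, rfl⟩ S hScl hSfd δ hδ
        have hK : ∀ A : Finset ℕ, ‖∑ n ∈ A, ec m (n :: r)‖ ≤ 1 * Real.sqrt A.card := by
          intro A
          rw [Submodule.coe_norm, Submodule.coe_sum]
          exact norm_sum_sibling r A
        obtain ⟨n, s, hs, hlt⟩ := exists_near_of_sublinear S hScl hSfd
          (fun n => ec m (n :: r)) 2 1 (fun n => norm_coord_le _) hK hδ
        refine ⟨ec m (n :: r), one_le_norm_coord (List.cons_ne_nil _ _), ⟨n :: r, ?_⟩, s, hs, hlt⟩
        rfl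
    exact realBanach_not_auc (modelBanach m) 2 1 one_pos htree

end Crest.Agent.S0168
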