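import Crest.Statements.S0169
import Crest.Agent.Lib.AUC.Basic

set_option autoImplicit false
open MeasureTheory ProbabilityTheory
open Crest Crest.AnalysisR

namespace Crest.Agent.S0169

section helper

open Crest.AnalysisR.TreeProduct

variable {Ω : Type} [MeasurableSpace Ω] {μ : Measure Ω} [IsProbabilityMeasure μ]
  {ν : Measure ℝ} [IsProbabilityMeasure ν] {W : List ℕ → Ω → ℝ}

/-- the non-root vertices on the root path of a vertex -/
def pathSet : List ℕ → Finset (List ℕ)
  | [] => ∅
  | a :: v => insert (a :: v) (pathSet v)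

lemma pathSet_len : ∀ (v u : List ℕ), u ∈ pathSet v → u.length ≤ v.length := by
  intro v
  induction v with
  | nil => intro u hu; simp [pathSet] at hu
  | cons a v ih =>
    intro u hu
    simp only [pathSet, Finset.mem_insert] at hu
    rcases hu with rfl | hu
    · exact le_rfl
    · have := ih u hu
      simp only [List.length_cons]; omega

lemma not_mem_pathSet (n : ℕ) (r : List ℕ) : (n :: r) ∉ pathSet r := by
  intro h
  have := pathSet_len _ _ h
  simp at this

lemma pathProduct_eq (v : List ℕ) (ω : Ω) : pathProduct W v ω = ∏ u ∈ pathSet v, W u ω := by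
  induction v with
  | nil => simp [pathProduct, pathSet]
  | cons a v ih =>
    simp only [pathProduct, pathSet]
    rw [Finset.prod_insert (not_mem_pathSet a v), ih, mul_comm]

lemma pathProduct_fun_eq (v : List ℕ) : pathProduct W v = ∏ u ∈ pathSet v, W u := by
  funext ω
  rw [pathProduct_eq, Finset.prod_apply]

lemma measurable_pathProduct (hW : IsRealization ν μ W) (v : List ℕ) :
    Measurable (pathProduct W v) := by
  have : pathProduct W v = fun ω => ∏ u ∈ pathSet v, W u ω := funext (pathProduct_eq v)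
  rw [this]
  exact Finset.measurable_prod _ (fun u _ => hW.1 u)

lemma integrable_abs_x (hpos : ν (Set.Ioi 0) = 1) (hmean : ∫ x, x ∂ν = 1) :
    Integrable (fun x : ℝ => x) ν ∧ ∫ x, |x| ∂ν = 1 := by
  have hint : Integrable (fun x : ℝ => x) ν := by
    by_contra h
    have := integral_undef h
    rw [hmean] at this
    norm_num at this
  refine ⟨hint, ?_⟩
  have hae : ∀ᵐ x ∂ν, x ∈ Set.Ioi (0 : ℝ) := by
    rw [ae_iff]
    have : ν (Set.Ioi (0 : ℝ))ᶜ = 0 := (prob_compl_eq_zero_iff measurableSet_Ioi).2 hpos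
    exact this
  rw [← hmean]
  refine integral_congr_ae ?_
  filter_upwards [hae] with x hx
  exact abs_of_pos hx

/-- `W v` for a non-root `v` has law `ν`, integrals transfer. -/
lemma integral_W (hW : IsRealization ν μ W) {v : List ℕ} (hv : v ≠ []) (g : ℝ → ℝ)
    (hg : Measurable g) : ∫ ω, g (W v ω) ∂μ = ∫ x, g x ∂ν := by
  have h := hW.2.2 v hv
  rw [← h, integral_map (hW.1 v).aemeasurable hg.aestronglyMeasurable]

lemma integrable_W (hW : IsRealization ν μ W) {v : List ℕ} (hv : v ≠ []) (g : ℝ → ℝ)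
    (hg : Measurable g) (hint : Integrable g ν) : Integrable (fun ω => g (W v ω)) μ := by
  have h := hW.2.2 v hv
  rw [← h] at hint
  exact (integrable_map_measure hg.aestronglyMeasurable (hW.1 v).aemeasurable).1 hint

lemma cons_ne_nil' (n : ℕ) (r : List ℕ) : (n :: r) ≠ [] := List.cons_ne_nil _ _

/-- independence of a path product from a function of a disjoint family. -/
lemma indep_path_fun (hW : IsRealization ν μ W) (r : List ℕ) (T : Finset (List ℕ))
    (hdis : Disjoint (pathSet r) T) (g : (T → ℝ) → ℝ) (hg : Measurable g) :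
    IndepFun (fun ω => |pathProduct W r ω|) (fun ω => g (fun i : T => W i ω)) μ := by
  have h := hW.2.1.indepFun_finset (pathSet r) T hdis hW.1
  have hφ : Measurable (fun z : (pathSet r → ℝ) => |∏ i, z i|) := by
    refine (Finset.measurable_prod _ (fun i _ => measurable_pi_apply i)).abs
  have h2 := h.comp hφ hg
  have h3 : (fun ω => |pathProduct W r ω|)
      = ((fun z : (pathSet r → ℝ) => |∏ i, z i|) ∘ fun a (i : pathSet r) => W i a) := by
    funext ω
    simp only [Function.comp]
    rw [pathProduct_eq, Finset.prod_coe_sort (pathSet r) (fun u => W u ω)]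
  rw [h3]
  exact h2

lemma abs_path_integrable (hW : IsRealization ν μ W) (hpos : ν (Set.Ioi 0) = 1)
    (hmean : ∫ x, x ∂ν = 1) : ∀ v : List ℕ,
    Integrable (fun ω => |pathProduct W v ω|) μ ∧ ∫ ω, |pathProduct W v ω| ∂μ = 1 := by
  have hx := integrable_abs_x hpos hmean
  intro v
  induction v with
  | nil =>
    simp [pathProduct]
  | cons a v ih =>
    have hne : (a :: v) ≠ [] := List.cons_ne_nil _ _
    have hInd : IndepFun (fun ω => |pathProduct W v ω|) (fun ω => |W (a :: v) ω|) μ := by
      have := hW.2.1.indepFun_finsetProd_of_notMem hW.1 (not_mem_pathSet a v)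
      rw [← pathProduct_fun_eq] at this
      exact this.comp measurable_abs measurable_abs
    have hWint : Integrable (fun ω => |W (a :: v) ω|) μ :=
      integrable_W hW hne (fun x => |x|) measurable_abs hx.1.abs
    have hWval : ∫ ω, |W (a :: v) ω| ∂μ = 1 := by
      rw [integral_W hW hne (fun x => |x|) measurable_abs, hx.2]
    have heq : (fun ω => |pathProduct W (a :: v) ω|)
        = (fun ω => |pathProduct W v ω|) * (fun ω => |W (a :: v) ω|) := by
      funext ω
      simp [pathProduct, abs_mul]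
    rw [heq]
    refine ⟨hInd.integrable_mul ih.1 hWint, ?_⟩
    rw [hInd.integral_mul_eq_mul_integral ih.1.aestronglyMeasurable hWint.aestronglyMeasurable]
    rw [ih.2, hWval, one_mul]

lemma path_integrable (hW : IsRealization ν μ W) (hpos : ν (Set.Ioi 0) = 1)
    (hmean : ∫ x, x ∂ν = 1) (v : List ℕ) : Integrable (pathProduct W v) μ := by
  have h := (abs_path_integrable hW hpos hmean v).1
  refine (integrable_norm_iff ?_).1 (by simpa [Real.norm_eq_abs] using h)
  exact (measurable_pathProduct hW v).aestronglyMeasurable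

/-- the class of a path product -/
noncomputable def F (hW : IsRealization ν μ W) (hpos : ν (Set.Ioi 0) = 1)
    (hmean : ∫ x, x ∂ν = 1) (v : List ℕ) : Lp ℝ 1 μ :=
  (path_integrable hW hpos hmean v).toL1 _

lemma F_ae (hW : IsRealization ν μ W) (hpos : ν (Set.Ioi 0) = 1)
    (hmean : ∫ x, x ∂ν = 1) (v : List ℕ) : (F hW hpos hmean v : Ω → ℝ) =ᵐ[μ] pathProduct W v :=
  Integrable.coeFn_toL1 _

lemma F_mem (hW : IsRealization ν μ W) (hpos : ν (Set.Ioi 0) = 1)
    (hmean : ∫ x, x ∂ν = 1) (v : List ℕ) : F hW hpos hmean v ∈ productSpan μ W := by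
  apply Submodule.le_topologicalClosure
  exact Submodule.subset_span ⟨v, F_ae hW hpos hmean v⟩

lemma F_norm (hW : IsRealization ν μ W) (hpos : ν (Set.Ioi 0) = 1)
    (hmean : ∫ x, x ∂ν = 1) (v : List ℕ) : ‖F hW hpos hmean v‖ = 1 := by
  rw [L1.norm_eq_integral_norm, ← (abs_path_integrable hW hpos hmean v).2]
  refine integral_congr_ae ?_
  filter_upwards [F_ae hW hpos hmean v] with ω hω
  rw [hω, Real.norm_eq_abs]

lemma coe_sum_ae {ι : Type*} (A : Finset ι) (g : ι → Lp ℝ 1 μ) :
    (⇑(∑ i ∈ A, g i) : Ω → ℝ) =ᵐ[μ] fun ω => ∑ i ∈ A, (g i : Ω → ℝ) ω := by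
  classical
  induction A using Finset.induction_on with
  | empty =>
    simp only [Finset.sum_empty]
    exact Lp.coeFn_zero _ _ _
  | insert a s ha ih =>
    rw [Finset.sum_insert ha]
    filter_upwards [Lp.coeFn_add (g a) (∑ i ∈ s, g i), ih] with ω h1 h2
    rw [h1, Finset.sum_insert ha, Pi.add_apply, h2]

/-- the sum of the centred children multipliers -/
noncomputable def D (W : List ℕ → Ω → ℝ) (r : List ℕ) (A : Finset ℕ) (ω : Ω) : ℝ :=
  ∑ n ∈ A, (W (n :: r) ω - 1)

lemma norm_sum_children (hW : IsRealization ν μ W) (hpos : ν (Set.Ioi 0) = 1)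
    (hmean : ∫ x, x ∂ν = 1) (r : List ℕ) (A : Finset ℕ) :
    ‖∑ n ∈ A, (F hW hpos hmean (n :: r) - F hW hpos hmean r)‖ = ∫ ω, |D W r A ω| ∂μ := by
  classical
  rw [L1.norm_eq_integral_norm]
  have hae : ∀ᵐ ω ∂μ, ∀ n ∈ A, (⇑(F hW hpos hmean (n :: r) - F hW hpos hmean r) : Ω → ℝ) ω
      = pathProduct W r ω * (W (n :: r) ω - 1) := by
    rw [Filter.eventually_all_finset]
    intro n _
    filter_upwards [Lp.coeFn_sub (F hW hpos hmean (n :: r)) (F hW hpos hmean r),
      F_ae hW hpos hmean (n :: r), F_ae hW hpos hmean r] with ω h1 h2 h3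
    rw [h1, Pi.sub_apply, h2, h3]
    simp only [pathProduct]
    ring
  have hcoe : ∀ᵐ ω ∂μ, ‖(⇑(∑ n ∈ A, (F hW hpos hmean (n :: r) - F hW hpos hmean r)) : Ω → ℝ) ω‖
      = |pathProduct W r ω| * |D W r A ω| := by
    filter_upwards [coe_sum_ae A (fun n => F hW hpos hmean (n :: r) - F hW hpos hmean r), hae]
      with ω h1 h2
    rw [h1, Finset.sum_congr rfl h2, ← Finset.mul_sum, Real.norm_eq_abs, abs_mul]
    rfl
  rw [integral_congr_ae hcoe]
  -- independence
  set T : Finset (List ℕ) := A.image (fun n => n :: r) with hT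
  have hinj : Function.Injective (fun n : ℕ => n :: r) := fun a b h => by
    simpa using (List.cons.inj h).1
  have hdis : Disjoint (pathSet r) T := by
    rw [Finset.disjoint_left]
    intro u hu hu'
    rw [hT, Finset.mem_image] at hu'
    obtain ⟨n, _, rfl⟩ := hu'
    exact not_mem_pathSet n r hu
  have hg : Measurable (fun z : T → ℝ => |∑ i, (z i - 1)|) := by
    refine (Finset.measurable_sum _ (fun i _ => (measurable_pi_apply i).sub_const 1)).abs
  have hInd := indep_path_fun hW r T hdis _ hg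
  have hDeq : (fun ω => |∑ i : T, (W i ω - 1)|) = fun ω => |D W r A ω| := by
    funext ω
    congr 1
    rw [Finset.sum_coe_sort T (fun u => W u ω - 1), hT, Finset.sum_image (fun a _ b _ h => hinj h)]
    rfl
  simp only [] at hInd
  rw [hDeq] at hInd
  have hmD : Measurable (fun ω => |D W r A ω|) := by
    unfold D
    exact (Finset.measurable_sum _ (fun n _ => (hW.1 _).sub_const 1)).abs
  have := hInd.integral_fun_mul_eq_mul_integral
    (measurable_pathProduct hW r).abs.aestronglyMeasurable hmD.aestronglyMeasurable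
  rw [this, (abs_path_integrable hW hpos hmean r).2, one_mul]

/-- The variance-type bound for the children sums. -/
lemma integral_abs_D_le (hW : IsRealization ν μ W) (hpos : ν (Set.Ioi 0) = 1)
    (hmean : ∫ x, x ∂ν = 1) (hm2 : Integrable (fun x : ℝ => x ^ 2) ν) (r : List ℕ)
    (A : Finset ℕ) :
    ∫ ω, |D W r A ω| ∂μ ≤ Real.sqrt (∫ x, (x - 1) ^ 2 ∂ν) * Real.sqrt A.card := by
  classical
  have hx := (integrable_abs_x hpos hmean).1
  set v : ℝ := ∫ x, (x - 1) ^ 2 ∂ν with hv
  have hint2 : Integrable (fun x : ℝ => (x - 1) ^ 2) ν := by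
    have : (fun x : ℝ => (x - 1) ^ 2) = fun x => x ^ 2 - 2 * x + 1 := by
      funext x; ring
    rw [this]
    exact (hm2.sub (hx.const_mul 2)).add (integrable_const _)
  have hmem : ∀ n : ℕ, MemLp (fun ω => W (n :: r) ω - 1) 2 μ := by
    intro n
    refine (memLp_two_iff_integrable_sq ?_).2 ?_
    · exact ((hW.1 _).sub_const 1).aestronglyMeasurable
    · exact integrable_W hW (List.cons_ne_nil _ _) (fun x => (x - 1) ^ 2)
        ((measurable_id.sub_const 1).pow_const 2) hint2
  have hmean0 : ∀ n : ℕ, ∫ ω, (W (n :: r) ω - 1) ∂μ = 0 := by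
    intro n
    rw [integral_W hW (List.cons_ne_nil _ _) (fun x => x - 1) (measurable_id.sub_const 1)]
    rw [integral_sub hx (integrable_const _), hmean]
    simp
  have hvar : ∀ n : ℕ, variance (fun ω => W (n :: r) ω - 1) μ = v := by
    intro n
    rw [variance_eq_integral ((hW.1 _).sub_const 1).aemeasurable]
    simp only [hmean0 n, sub_zero]
    exact integral_W hW (List.cons_ne_nil _ _) (fun x => (x - 1) ^ 2)
      ((measurable_id.sub_const 1).pow_const 2)
  have hpair : Set.Pairwise (A : Set ℕ) fun i j =>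
      IndepFun (fun ω => W (i :: r) ω - 1) (fun ω => W (j :: r) ω - 1) μ := by
    intro i _ j _ hij
    have hne : (i :: r) ≠ (j :: r) := fun h => hij (List.cons.inj h).1
    exact (hW.2.1.indepFun hne).comp (measurable_id.sub_const 1) (measurable_id.sub_const 1)
  have hsumvar := IndepFun.variance_sum (X := fun n ω => W (n :: r) ω - 1) (s := A)
    (fun n _ => hmem n) hpair
  have hDfun : (∑ n ∈ A, fun ω => W (n :: r) ω - 1) = D W r A := by
    funext ω
    simp [D, Finset.sum_apply]
  rw [hDfun] at hsumvar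
  simp only [hvar, Finset.sum_const, nsmul_eq_mul] at hsumvar
  -- mean of D zero and MemLp
  have hmemD : MemLp (D W r A) 2 μ := by
    show MemLp (fun ω => ∑ n ∈ A, (W (n :: r) ω - 1)) 2 μ
    exact memLp_finset_sum A (fun n _ => hmem n)
  have hmemAbs : MemLp (fun ω => |D W r A ω|) 2 μ := by
    exact hmemD.norm
  have hmeanD : ∫ ω, D W r A ω ∂μ = 0 := by
    unfold D
    rw [integral_finset_sum]
    · simp [hmean0]
    · intro n _
      exact (hmem n).integrable one_le_two
  have h1 : variance (D W r A) μ = ∫ ω, (D W r A ω) ^ 2 ∂μ := by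
    rw [variance_eq_integral hmemD.aemeasurable, hmeanD]
    simp
  have h2 := variance_nonneg (fun ω => |D W r A ω|) μ
  have h3 : variance (fun ω => |D W r A ω|) μ
      = ∫ ω, (D W r A ω) ^ 2 ∂μ - (∫ ω, |D W r A ω| ∂μ) ^ 2 := by
    rw [variance_eq_sub hmemAbs]
    simp [sq_abs]
  have h4 : (∫ ω, |D W r A ω| ∂μ) ^ 2 ≤ (A.card : ℝ) * v := by
    rw [← hsumvar, h1]; linarith
  have hv0 : 0 ≤ v := integral_nonneg (fun x => sq_nonneg _)
  have hI0 : 0 ≤ ∫ ω, |D W r A ω| ∂μ := integral_nonneg (fun x => abs_nonneg _)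
  calc ∫ ω, |D W r A ω| ∂μ = Real.sqrt ((∫ ω, |D W r A ω| ∂μ) ^ 2) := (Real.sqrt_sq hI0).symm
    _ ≤ Real.sqrt ((A.card : ℝ) * v) := Real.sqrt_le_sqrt h4
    _ = Real.sqrt v * Real.sqrt A.card := by
        rw [Real.sqrt_mul (Nat.cast_nonneg _), mul_comm]

/-- Positivity of the first absolute moment of `W - 1`. -/
lemma abs_moment_pos (hnc : ∀ c : ℝ, ν ≠ Measure.dirac c)
    (hint : Integrable (fun x : ℝ => x) ν) : 0 < ∫ x, |x - 1| ∂ν := by
  have hint' : Integrable (fun x : ℝ => |x - 1|) ν := (hint.sub (integrable_const _)).abs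
  refine lt_of_le_of_ne (integral_nonneg (fun x => abs_nonneg _)) ?_
  intro h
  have hzero := (integral_eq_zero_iff_of_nonneg (fun x => abs_nonneg _) hint').1 h.symm
  apply hnc 1
  refine Measure.ext (fun B hB => ?_)
  rw [Measure.dirac_apply' _ hB]
  have hae : ∀ᵐ x ∂ν, x = 1 := by
    filter_upwards [hzero] with x hx
    have : |x - 1| = 0 := hx
    have := abs_eq_zero.1 this
    linarith
  by_cases h1 : (1 : ℝ) ∈ B
  · rw [Set.indicator_of_mem h1]
    have : ν B = 1 := by
      refine (prob_compl_eq_zero_iff hB).1 ?_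
      rw [measure_eq_zero_iff_ae_notMem]
      filter_upwards [hae] with x hx
      rw [hx]; simpa using h1
    simpa using this
  · rw [Set.indicator_of_notMem h1]
    have : ν B = 0 := by
      rw [measure_eq_zero_iff_ae_notMem]
      filter_upwards [hae] with x hx
      rw [hx]; exact h1
    simpa using this

end helper

/-- Let ν be a Borel probability law on ℝ carried by (0,∞), not a point mass, with mean 1 and finite second moment, and W an independent family of real random variables on a probability space indexed by the vertices of the countably branching tree (finite lists of naturals; root [], parent of a :: v is v), each non-root one with law ν. Then the closed linear span in L¹ of the path products ∏_{root ≺ u ≼ v} W_u is infinite-dimensional and has no equivalent asymptotically uniformly convex norm. -/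
theorem result (ν : Measure ℝ) [IsProbabilityMeasure ν] (hpos : ν (Set.Ioi 0) = 1)
    (hnc : ∀ c : ℝ, ν ≠ Measure.dirac c) (hmean : ∫ x, x ∂ν = 1)
    (hm2 : Integrable (fun x : ℝ => x ^ 2) ν)
    (Ω : Type) [MeasurableSpace Ω] (μ : Measure Ω) [IsProbabilityMeasure μ]
    (W : List ℕ → Ω → ℝ) (hW : Crest.AnalysisR.TreeProduct.IsRealization ν μ W) :
    ¬ FiniteDimensional ℝ (Crest.AnalysisR.TreeProduct.productSpan μ W) ∧
      ∀ N : (Crest.AnalysisR.TreeProduct.spanBanach μ W).X → ℝ,
        (Crest.AnalysisR.TreeProduct.spanBanach μ W).IsEquivNorm N →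
          ¬ (Crest.AnalysisR.TreeProduct.spanBanach μ W).IsAUC N := by
  classical
  set E := Crest.AnalysisR.TreeProduct.productSpan μ W with hE
  have hx := (integrable_abs_x hpos hmean).1
  set m : ℝ := ∫ x, |x - 1| ∂ν with hm
  have hmpos : 0 < m := abs_moment_pos hnc hx
  set K : ℝ := Real.sqrt (∫ x, (x - 1) ^ 2 ∂ν) with hK
  -- elements
  let G : List ℕ → E := fun v => ⟨F hW hpos hmean v, F_mem hW hpos hmean v⟩
  let y : List ℕ → ℕ → E := fun r n => G (n :: r) - G r
  have hysum : ∀ r (A : Finset ℕ), ‖∑ n ∈ A, y r n‖ = ∫ ω, |D W r A ω| ∂μ := by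
    intro r A
    have := norm_sum_children hW hpos hmean r A
    rw [← this, Submodule.coe_norm]
    congr 1
    simp [y, G, Submodule.coe_sum]
  have hyK : ∀ r (A : Finset ℕ), ‖∑ n ∈ A, y r n‖ ≤ K * Real.sqrt A.card := by
    intro r A
    rw [hysum]
    exact integral_abs_D_le hW hpos hmean hm2 r A
  have hy1 : ∀ r n, ‖y r n‖ ≤ K := by
    intro r n
    have := hyK r {n}
    simpa using this
  have hym : ∀ r n, ‖y r n‖ = m := by
    intro r n
    have h := hysum r {n}
    simp only [Finset.sum_singleton] at h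
    rw [h, hm]
    simp only [D, Finset.sum_singleton]
    exact integral_W hW (List.cons_ne_nil _ _) (fun x => |x - 1|)
      (measurable_id.sub_const 1).abs
  constructor
  · intro hfd
    have hcl : IsClosed ((⊥ : Submodule ℝ E) : Set E) := by
      simp
    have hfd' : FiniteDimensional ℝ (E ⧸ (⊥ : Submodule ℝ E)) := inferInstance
    obtain ⟨n, s, hs, hlt⟩ := Crest.Agent.Lib.AUC.exists_near_of_sublinear
      (⊥ : Submodule ℝ E) hcl hfd' (y [] ) K K (hy1 []) (hyK []) hmpos
    rw [Submodule.mem_bot] at hs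
    subst hs
    rw [sub_zero, hym] at hlt
    exact lt_irrefl _ hlt
  · have htree : ∀ L : ℕ, ∃ 𝒯 : ℕ → Set E, (∃ x ∈ 𝒯 0, m ≤ ‖x‖) ∧ (∀ j, ∀ x ∈ 𝒯 j, ‖x‖ ≤ 2) ∧
      ∀ j, j < L → ∀ x ∈ 𝒯 j, ∀ S : Submodule ℝ E, IsClosed (S : Set E) →
        FiniteDimensional ℝ (E ⧸ S) → ∀ δ : ℝ, 0 < δ →
          ∃ y, m ≤ ‖y‖ ∧ x + y ∈ 𝒯 (j + 1) ∧ ∃ s ∈ S, ‖y - s‖ < δ := ?_
    · exact Crest.Agent.Lib.AUC.realBanach_not_auc
        (Crest.AnalysisR.TreeProduct.spanBanach μ W) 2 m hmpos htree
    intro L
    refine ⟨fun _ => {x : E | ∃ v, x = G v - G []}, ⟨G [0] - G [], ⟨[0], rfl⟩, ?_⟩, ?_, ?_⟩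
    · exact (hym [] 0).ge
    · rintro j x ⟨v, rfl⟩
      calc ‖G v - G []‖ ≤ ‖G v‖ + ‖G []‖ := norm_sub_le _ _
        _ = 2 := by
          rw [Submodule.coe_norm, Submodule.coe_norm]
          simp only [G]
          rw [F_norm, F_norm]; norm_num
    · rintro j - x ⟨r, rfl⟩ S hScl hSfd δ hδ
      obtain ⟨n, s, hs, hlt⟩ := Crest.Agent.Lib.AUC.exists_near_of_sublinear
        S hScl hSfd (y r) K K (hy1 r) (hyK r) hδ
      refine ⟨y r n, (hym r n).ge, ⟨n :: r, ?_⟩, s, hs, hlt⟩
      simp only [y]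
      abel

end Crest.Agent.S0169
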