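import Crest.Statements.S0255
import Crest.Agent.Lib.SR.Assembly

set_option autoImplicit false
open Crest Crest.ProbabilityR
open MeasureTheory Filter

namespace Crest.Agent.S0255

open Crest.Agent.Lib.SR Crest.ProbabilityR.StronglyRayleigh

/-- For a countable group `Γ` and a strongly Rayleigh probability law `ν` on binary configurations `Γ → Bool` that is invariant under every left shift `a ↦ (h ↦ a (g⁻¹ h))`, there is a measurable map from independent uniform labels indexed by `Γ` to configurations that commutes with every left shift and pushes the label law forward to `ν`. -/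
theorem result (Γ : Type*) [Group Γ]
    [Countable Γ] (ν : MeasureTheory.Measure (Γ → Bool)) [MeasureTheory.IsProbabilityMeasure ν]
    (hsr : Crest.ProbabilityR.StronglyRayleigh.IsStronglyRayleigh ν)
    (hinv : Crest.ProbabilityR.StronglyRayleigh.IsShiftInvariant ν) :
    ∃ Φ : (Γ → unitInterval) → (Γ → Bool), Measurable Φ ∧
      (∀ (g : Γ) (u : Γ → unitInterval),
        Φ (Crest.ProbabilityR.StronglyRayleigh.leftShift g u) =
          Crest.ProbabilityR.StronglyRayleigh.leftShift g (Φ u)) ∧
      (Crest.ProbabilityR.Labels.labelMeasure Γ).map Φ = ν := by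
  classical
  -- an exhaustion of the group by finite sets containing the identity
  obtain ⟨e, he⟩ := exists_surjective_nat Γ
  set F : ℕ → Finset Γ := fun n => insert 1 ((Finset.range n).image e) with hF
  have hFmono : Monotone F := by
    intro m n hmn
    apply Finset.insert_subset_insert
    exact Finset.image_subset_image (Finset.range_mono hmn)
  have hF1 : ∀ n, (1 : Γ) ∈ F n := fun n => Finset.mem_insert_self _ _
  have hFex : ∀ g, ∃ n, g ∈ F n := by
    intro g
    obtain ⟨m, rfl⟩ := he g
    exact ⟨m + 1, Finset.mem_insert_of_mem (Finset.mem_image_of_mem _ (by simp))⟩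
  set W : Γ → ℕ → Finset Γ := fun g n => (F n).map (Equiv.mulLeft g).toEmbedding with hW
  have hWmono : ∀ g, Monotone (W g) := fun g m n hmn =>
    Finset.map_subset_map.mpr (hFmono hmn)
  have hWmem : ∀ g n, g ∈ W g n := by
    intro g n
    simp only [hW, Finset.mem_map_equiv]
    simpa using hF1 n
  have hWex : ∀ g h, ∃ n, h ∈ W g n := by
    intro g h
    obtain ⟨n, hn⟩ := hFex (g⁻¹ * h)
    refine ⟨n, ?_⟩
    simp only [hW, Finset.mem_map_equiv]
    simpa using hn
  set a : Γ → (Γ → ℝ) → ℝ := fun g h => limsup (fun n => aW ν (W g n) g h) atTop with ha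
  have hlip : ∀ g n h h' δ, (∀ j ∈ W g n, |h j - h' j| ≤ δ) →
      |aW ν (W g n) g h - aW ν (W g n) g h'| ≤ δ / 2 := by
    intro g n h h' δ hδ
    apply meanTilt_lipschitz (hWmem g n) (massW_nonneg ν (W g n)) _ hδ
    intro z hz
    exact hsr (W g n) z hz
  have hcore : ∀ ρ : Γ → ℝ, Function.Injective ρ → (Unif (ℕ × Γ)).map (Rule a ρ) = ν := by
    intro ρ hρ
    exact core_law ν hWmono hWmem hWex (fun _ _ => rfl) hlip hρ
  have ham : ∀ g, Measurable (a g) := fun g =>
    Measurable.limsup (fun n => measurable_aW ν _ _)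
  obtain ⟨f, hf, hfmap⟩ := exists_split
  refine ⟨fiidRule a f, measurable_fiidRule ham hf, ?_, map_fiidRule ham hf hfmap hcore⟩
  -- equivariance
  intro g u
  set τ : Γ ≃ Γ := Equiv.mulLeft g with hτ
  have hmass : ∀ (V : Finset Γ) (A : Finset Γ),
      massW ν (V.map τ.toEmbedding) (A.map τ.toEmbedding) = massW ν V A := by
    intro V A
    unfold massW
    rw [cyl_map]
    congr 1
    have hs : (fun ω : Γ → Bool => ω ∘ τ) = leftShift g⁻¹ := by
      funext ω h
      simp [leftShift, hτ]
    rw [hs]
    exact hinv g⁻¹ _ (measurableSet_cyl V A)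
  have hequiv : ∀ i h, a (τ i) (h ∘ τ.symm) = a i h := by
    intro i h
    simp only [ha]
    congr 1
    funext n
    have hWτ : W (τ i) n = (W i n).map τ.toEmbedding := by
      simp only [hW, Finset.map_map]
      congr 1
      ext x
      simp [hτ, mul_assoc]
    rw [hWτ]
    exact meanTilt_map τ (hmass (W i n)) (W i n) i h
  have h1 := Rule_equiv τ hequiv (fun g => ((f (u g) 0 : unitInterval) : ℝ))
    (fun q => f (u q.2) (q.1 + 1))
  have e1 : fiidRule a f (leftShift g u) = Rule a ((fun g => ((f (u g) 0 : unitInterval) : ℝ)) ∘ τ.symm)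
      (relabel τ (fun q => f (u q.2) (q.1 + 1))) := by
    unfold fiidRule relabel
    congr 1
  rw [e1, h1]
  funext h
  simp [leftShift, hτ, fiidRule]

end Crest.Agent.S0255
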