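import Crest.Statements.S0316
import Crest.Agent.Lib.QuadricDegenerate

set_option autoImplicit false
open Crest Crest.GeometryTopology

namespace Crest.Agent.S0316

open Crest.GeometryTopology.Quadric
open Crest.Agent.Lib.QuadricFlow
open scoped ContDiff

/-- The lift attached to the flow data. -/
noncomputable def liftOf (S : Setup) : HamiltonianConeLift where
  Ψ := S.PsiF
  H := S.HF
  smooth_Ψ := Setup.contDiff_PsiF
  smooth_H := Setup.contDiff_HF
  mapsTo_cone := fun t _ hz => Setup.PsiF_cone t hz
  compatible := fun t z _ _ hc => ⟨_, Setup.PsiF_smul t hc z⟩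
  start := fun z _ => ⟨1, by rw [Setup.PsiF_zero, one_smul]⟩
  invariant := fun t z _ _ hc => Setup.HF_smul t hc z
  hamilton := fun t _ _ hz w _ => Setup.hamilton_eq t hz w

lemma span_zs_inj {a b a' b' : ℝ}
    (h : Submodule.span ℂ {zs a b} = Submodule.span ℂ {zs a' b'}) : a = a' ∧ b = b' := by
  have h1 : zs a' b' ∈ Submodule.span ℂ {zs a b} := by
    rw [h]
    exact Submodule.mem_span_singleton_self _
  obtain ⟨c, hc⟩ := Submodule.mem_span_singleton.1 h1
  have hs : (s2 : ℂ) ≠ 0 := by exact_mod_cast s2_pos.ne'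
  have hs' : s2 ≠ 0 := s2_pos.ne'
  have h0 : c * (s2 : ℂ) = s2 := congrFun hc 0
  have hc1 : c = 1 := by
    have : (c - 1) * (s2 : ℂ) = 0 := by rw [sub_mul, h0, one_mul, sub_self]
    exact sub_eq_zero.1 ((mul_eq_zero.1 this).resolve_right hs)
  subst hc1
  simp only [one_smul] at hc
  constructor
  · have h2 := congrArg (fun v : E5 => (v 1).im) hc
    simp only [zs_im1] at h2
    exact mul_left_cancel₀ hs' h2
  · have h2 := congrArg (fun v : E5 => (v 2).im) hc
    simp only [zs_im2] at h2
    exact mul_left_cancel₀ hs' h2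

lemma negA_smul_zs (a b : ℝ) (c : ℂ) : negA (c • zs a b) = (-c) • zs a b := by
  refine ext5 ?_ ?_ ?_ ?_ ?_ <;> simp [negA, zs]

/-- Each of the three special lines is fixed. -/
lemma special_mem (S : Setup) {a b l : ℝ} (hab : a * a + b * b = 1) (h1 : b * (2 + 4 * a) = l)
    (h2 : l * a = 2 * b) (h3 : l * b = 2 * (1 + a)) :
    Submodule.span ℂ {zs a b} ∈ fixedLines (liftOf S) := by
  refine ⟨zs a b, zs_cone hab, rfl, ?_⟩
  change S.PsiF (1, zs a b) ∈ _
  rw [Setup.PsiF_one, Setup.flow_zs hab h1 h2 h3 (by norm_num), negA_smul_zs]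
  exact Submodule.smul_mem _ _ (Submodule.mem_span_singleton_self _)

theorem fixedLines_eq (S : Setup) :
    fixedLines (liftOf S) = {Submodule.span ℂ {zs (-1) 0}, Submodule.span ℂ {zs (1 / 2) s3},
      Submodule.span ℂ {zs (1 / 2) (-s3)}} := by
  have hs3 := s3_sq
  apply Set.Subset.antisymm
  · rintro ℓ ⟨z, hz, rfl, hmem⟩
    obtain ⟨c, hc⟩ := Submodule.mem_span_singleton.1 hmem
    have hc' : c • z = negA (S.Φ (1, z)) := by
      rw [hc]
      exact Setup.PsiF_one z
    simpa using Setup.classify hz hc'
  · rintro ℓ (rfl | rfl | rfl)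
    · exact special_mem S (l := 0) (by norm_num) (by norm_num) (by norm_num) (by norm_num)
    · refine special_mem S (l := 4 * s3) (by linear_combination hs3) (by ring) (by ring) ?_
      linear_combination 4 * hs3
    · refine special_mem S (l := -(4 * s3)) (by linear_combination hs3) (by ring) (by ring) ?_
      linear_combination 4 * hs3

theorem degenerate (S : Setup) : HasDegenerateFixedPoint (liftOf S) := by
  have h1 : (liftOf S).Ψ (1, z0) = (-1 : ℂ) • z0 := by
    change S.PsiF (1, z0) = _
    rw [Setup.PsiF_one, Setup.flow_z0 (by norm_num)]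
    have e : z0 = (1 : ℂ) • zs (-1) 0 := by
      rw [one_smul]
      rfl
    conv_lhs => rw [e]
    rw [negA_smul_zs]
    rfl
  refine ⟨z0, z0_cone, -1, h1, w0, ?_, ?_, r0 S.ε, ?_⟩
  · constructor
    · rw [herm_re]
      simp [Fin.sum_univ_five, w0, z0_re0, z0_im0, z0_re1, z0_im1, z0_2, z0_3, z0_4]
    · simp [Fin.sum_univ_five, w0, z0_2, z0_3, z0_4]
  · intro r hr
    have h2 := congrFun hr 2
    simp [w0, z0_2] at h2
  · -- the derivative
    have e : (fun x : E5 => (liftOf S).Ψ (1, x)) = fun x => negACLM (S.Φ (1, x)) := by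
      funext x
      exact Setup.PsiF_one x
    rw [e]
    have hd : DifferentiableAt ℝ (fun x' => S.Φ (1, x')) z0 := by
      have h2 : DifferentiableAt ℝ S.Φ (1, z0) :=
        (S.smooth (1, z0) (by norm_num)).differentiableAt (by simp)
      exact h2.comp z0 (hasFDerivAt_prodMk_right (1 : ℝ) z0).differentiableAt
    have h3 : HasFDerivAt (fun x => negACLM (S.Φ (1, x)))
        (negACLM ∘L fderiv ℝ (fun x' => S.Φ (1, x')) z0) z0 :=
      negACLM.hasFDerivAt.comp z0 hd.hasFDerivAt
    rw [h3.fderiv, ContinuousLinearMap.comp_apply, Setup.fderiv_flow_w0, negACLM_apply]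
    refine ext5 ?_ ?_ ?_ ?_ ?_ <;> simp [negA, w0, z0_4]

/-- There is a Hamiltonian diffeomorphism of the complex quadric threefold (the zero set of z₀² + ⋯ + z₄² in complex projective 4-space, with the restricted Fubini–Study form) having exactly three fixed points, at least one of them degenerate. Hamiltonian isotopies are encoded by smooth lifts to the unit isotropic cone in ℂ⁵ obeying Hamilton's equation; points of the quadric are complex lines through cone points; degenerate means the differential of the time-one map fixes a nonzero tangent vector. -/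
theorem result :
    ∃ L : Crest.GeometryTopology.Quadric.HamiltonianConeLift,
      (Crest.GeometryTopology.Quadric.fixedLines L).ncard = 3 ∧
      Crest.GeometryTopology.Quadric.HasDegenerateFixedPoint L := by
  obtain ⟨S⟩ := exists_setup
  refine ⟨liftOf S, ?_, degenerate S⟩
  rw [fixedLines_eq, Set.ncard_eq_three]
  refine ⟨_, _, _, ?_, ?_, ?_, rfl⟩
  · intro h
    have := (span_zs_inj h).1
    norm_num at this
  · intro h
    have := (span_zs_inj h).1
    norm_num at this
  · intro h
    have h2 := (span_zs_inj h).2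
    have := s3_pos
    linarith

end Crest.Agent.S0316
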