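-- Statement S0324: see Crest/Templates/S0324.lean.txt
import Crest.Statements.S0324
import Crest.Agent.Lib.Tetra.Cover
import Crest.Agent.Lib.Tetra.Proj2

set_option autoImplicit false
open MeasureTheory
open scoped ENNReal
open Crest Crest.GeometryTopology Crest.GeometryTopology.Convex

namespace Crest.Agent.S0324

/-- The regular tetrahedron `K` with vertices `(±1, 0, 0)`, `(0, ±1, √2)` is covered by finitely many cylinders `Bᵢ + ℝ uᵢ`, each with unit direction `uᵢ` and base `Bᵢ` a triangle (convex hull of three points) in the plane `uᵢ^⊥`, whose total base area `∑ᵢ area(Bᵢ)` is smaller, by a positive margin, than half the area of the orthogonal projection of `K` onto `v^⊥` for every unit vector `v`; areas are 2-dimensional Hausdorff measure. -/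
theorem result :
    ∃ (m : ℕ) (u p q r : Fin m → EuclideanSpace ℝ (Fin 3)),
      (∀ i, ‖u i‖ = 1) ∧
      (∀ i, inner ℝ (p i) (u i) = 0 ∧ inner ℝ (q i) (u i) = 0 ∧ inner ℝ (r i) (u i) = 0) ∧
      convexHull ℝ {!₂[1, 0, 0], !₂[-1, 0, 0], !₂[0, 1, Real.sqrt 2], !₂[0, -1, Real.sqrt 2]} ⊆
        ⋃ i, {x : EuclideanSpace ℝ (Fin 3) | ∃ b ∈ convexHull ℝ {p i, q i, r i}, ∃ t : ℝ, x = b + t • u i} ∧
      ∃ δ : ℝ, 0 < δ ∧ ∀ v : EuclideanSpace ℝ (Fin 3), ‖v‖ = 1 →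
        ∑ i, (μH[(2 : ℝ)] (convexHull ℝ {p i, q i, r i})).toReal + δ ≤
          (μH[(2 : ℝ)] ((fun y => y - inner ℝ y v • v) '' convexHull ℝ {!₂[1, 0, 0], !₂[-1, 0, 0], !₂[0, 1, Real.sqrt 2], !₂[0, -1, Real.sqrt 2]})).toReal / 2 := by
  obtain ⟨u, p, q, r, h1, h2, h3, h4, -⟩ := Tetra.cover_family (1 / 2000) (by norm_num) le_rfl
  obtain ⟨C, hC, hCS⟩ := Tetra.muHE_toReal
  refine ⟨_, u, p, q, r, h1, h2, h3, Real.sqrt 2 * (13 / 6000 * (1 / 2000) ^ 2) / C, ?_, ?_⟩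
  · have := Tetra.sqrt2_pos
    positivity
  intro v hv
  have h5 := Tetra.proj_toReal_ge v hv
  rw [hCS] at h5
  have h6 : ∑ i, (μH[(2 : ℝ)] (convexHull ℝ {p i, q i, r i})).toReal =
      Real.sqrt 2 * (1 / 2 - 13 / 6000 * (1 / 2000) ^ 2) / C := by
    rw [← h4, Finset.sum_div]
    refine Finset.sum_congr rfl (fun i _ => ?_)
    rw [hCS]; field_simp
  rw [h6]
  have h7 : Real.sqrt 2 / C ≤ (μH[(2 : ℝ)] ((Tetra.prj v) '' Tetra.stdK)).toReal := by
    rw [div_le_iff₀ hC]; linarith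
  change _ ≤ (μH[(2 : ℝ)] ((Tetra.prj v) '' Tetra.stdK)).toReal / 2
  have e : Real.sqrt 2 * (1 / 2 - 13 / 6000 * (1 / 2000) ^ 2) / C +
      Real.sqrt 2 * (13 / 6000 * (1 / 2000) ^ 2) / C = (Real.sqrt 2 / C) / 2 := by
    field_simp; ring
  rw [e]
  linarith

end Crest.Agent.S0324
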