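-- Statement S0326: see Crest/Templates/S0326.lean.txt
import Crest.Statements.S0326
import Crest.Agent.Lib.Tetra.SqCov2

set_option autoImplicit false
open MeasureTheory
open scoped ENNReal
open Crest Crest.GeometryTopology Crest.GeometryTopology.Convex

namespace Crest.Agent.S0326

open Tetra Set Metric

set_option maxHeartbeats 1000000 in
/-- Let D ⊂ ℝ² be compact, V : ℝ² → ℝ² be C¹ on an open set containing D, and L, h > 0, with tr DV(p) = 0 and −1/L² < det DV(p) ≤ 0 for p ∈ D. Let E ⊂ ℝ × ℝ² be the ruled set of points (s, p + s V(p)), p ∈ D, −L ≤ s ≤ L. For every ε > 0, finitely many squares Tᵢ = cᵢ + [0,1]aᵢ + [0,1]bᵢ (aᵢ ⊥ bᵢ of equal nonzero length) and velocities gᵢ ∈ ℝ² exist whose sheared cylinders {(s, ξ) : ξ ∈ Tᵢ + s gᵢ} cover E, with ∑ᵢ area(Tᵢ) J(gᵢ) ≤ ∫_D J(V(p)) dp + ε, where J(g) = (1 + g₁² + h² g₂²)^(−1/2). -/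
theorem result
    (D : Set (EuclideanSpace ℝ (Fin 2))) (hD : IsCompact D)
    (V : EuclideanSpace ℝ (Fin 2) → EuclideanSpace ℝ (Fin 2)) (U : Set (EuclideanSpace ℝ (Fin 2)))
    (hU : IsOpen U) (hDU : D ⊆ U) (hV : ContDiffOn ℝ 1 V U) (L h : ℝ) (hL : 0 < L) (hh : 0 < h)
    (htr : ∀ p ∈ D, LinearMap.trace ℝ _ (fderiv ℝ V p).toLinearMap = 0)
    (hdet : ∀ p ∈ D, -(L ^ 2)⁻¹ < LinearMap.det (fderiv ℝ V p).toLinearMap ∧
      LinearMap.det (fderiv ℝ V p).toLinearMap ≤ 0)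
    (ε : ℝ) (hε : 0 < ε) :
    ∃ (k : ℕ) (c a b g : Fin k → EuclideanSpace ℝ (Fin 2)),
      (∀ i, a i ≠ 0 ∧ ‖b i‖ = ‖a i‖ ∧ inner ℝ (a i) (b i) = 0) ∧
      {z : ℝ × EuclideanSpace ℝ (Fin 2) | ∃ p ∈ D, abs z.1 ≤ L ∧ z.2 = p + z.1 • V p} ⊆
        ⋃ i, {z : ℝ × EuclideanSpace ℝ (Fin 2) | ∃ x ∈ Set.Icc (0 : ℝ) 1, ∃ y ∈ Set.Icc (0 : ℝ) 1,
          z.2 = c i + x • a i + y • b i + z.1 • g i} ∧
      ∑ i, ‖a i‖ ^ 2 / Real.sqrt (1 + (g i 0) ^ 2 + h ^ 2 * (g i 1) ^ 2) ≤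
        (∫ p in D, 1 / Real.sqrt (1 + (V p 0) ^ 2 + h ^ 2 * (V p 1) ^ 2)) + ε := by
  classical
  obtain ⟨φ, hφ⟩ : ∃ φ : E2 → ℝ, φ = fun p => jac h (V p) := ⟨_, rfl⟩
  have hφc : ContinuousOn φ D := by
    rw [hφ]
    intro p hp
    exact (jac_continuousAt V h p (hV.continuousOn.continuousAt (hU.mem_nhds (hDU hp)))).continuousWithinAt
  have hφint : IntegrableOn φ D := hφc.integrableOn_compact hD
  have hDfin : volume D ≠ ∞ := hD.measure_lt_top.ne
  obtain ⟨I₀, hI₀⟩ : ∃ I₀, I₀ = ∫ p in D, φ p := ⟨_, rfl⟩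
  obtain ⟨VD, hVD⟩ : ∃ VD, VD = (volume D).toReal := ⟨_, rfl⟩
  have hVD0 : 0 ≤ VD := by rw [hVD]; exact ENNReal.toReal_nonneg
  have hI₀0 : 0 ≤ I₀ := by
    rw [hI₀]
    apply integral_nonneg
    intro p
    rw [hφ]
    exact (jac_pos h _).le
  obtain ⟨η, hηdef⟩ : ∃ η, η = min 1 (ε / (8 * VD + 4 + 3 * I₀)) := ⟨_, rfl⟩
  have hη : 0 < η := by rw [hηdef]; exact lt_min one_pos (by positivity)
  have hη1 : η ≤ 1 := by rw [hηdef]; exact min_le_left _ _
  have hηε : η * (8 * VD + 4 + 3 * I₀) ≤ ε := by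
    have : η ≤ ε / (8 * VD + 4 + 3 * I₀) := by rw [hηdef]; exact min_le_right _ _
    rwa [le_div_iff₀ (by positivity)] at this
  -- local data
  have hpt := fun p (hp : p ∈ D) => point_data V U hU hV L h hL p (hDU hp) (htr p hp) (hdet p hp) η hη
  choose! ρ hρ0 hρφ hρcell using hpt
  obtain ⟨t, ht, hcov⟩ := hD.elim_nhds_subcover (fun p => ball p (ρ p))
    (fun p hp => ball_mem_nhds p (hρ0 p hp))
  obtain ⟨N, hN⟩ : ∃ N, N = t.card := ⟨_, rfl⟩
  let e : t ≃ Fin t.card := t.equivFin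
  let q : Fin t.card → E2 := fun j => (e.symm j : E2)
  have hq : ∀ j, q j ∈ D := fun j => ht _ (e.symm j).2
  have hcov' : D ⊆ ⋃ j, ball (q j) (ρ (q j)) := by
    intro x hx
    have := hcov hx
    simp only [mem_iUnion] at this
    obtain ⟨p, hp, hxp⟩ := this
    refine mem_iUnion.mpr ⟨e ⟨p, hp⟩, ?_⟩
    simpa [q] using hxp
  obtain ⟨K, hKc, hKD, hKb, hKU, hKd⟩ := pieces D hD q (fun j => ρ (q j)) hcov'
  obtain ⟨ε', hε'⟩ : ∃ ε', ε' = η / (2 * ((t.card : ℝ) + 1)) := ⟨_, rfl⟩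
  have hε'0 : 0 < ε' := by rw [hε']; positivity
  have hKm : ∀ j, MeasurableSet (K j) := fun j => (hKc j).isClosed.measurableSet
  have hcover : {z : ℝ × E2 | ∃ p ∈ D, |z.1| ≤ L ∧ z.2 = p + z.1 • V p} ⊆
      ⋃ j, {z : ℝ × E2 | ∃ p ∈ K j, |z.1| ≤ L ∧ z.2 = p + z.1 • V p} := by
    rintro z ⟨p, hp, hz⟩
    rw [← hKU] at hp
    obtain ⟨j, hj⟩ := mem_iUnion.mp hp
    exact mem_iUnion.mpr ⟨j, p, hj, hz⟩
  have hSq := SqCov.iUnion (fun j => {z : ℝ × E2 | ∃ p ∈ K j, |z.1| ≤ L ∧ z.2 = p + z.1 • V p}) h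
    (fun j => ((volume (K j)).toReal + ε') * (1 + η) ^ 2 * (jac h (V (q j)) + η))
    (fun j => hρcell (q j) (hq j) (K j) (hKc j) (hKb j) ε' hε'0)
  -- one cell
  have hone : ∀ j, ((volume (K j)).toReal + ε') * (1 + η) ^ 2 * (jac h (V (q j)) + η) ≤
      (1 + η) ^ 2 * ((∫ x in K j, (φ x + 2 * η)) + ε' * (1 + η)) := by
    intro j
    have hfinj : volume (K j) ≠ ∞ := (hKc j).measure_lt_top.ne
    have hint : IntegrableOn (fun x => φ x + 2 * η) (K j) :=
      (hφint.mono_set (hKD j)).add (integrableOn_const hfinj)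
    have h1 : (jac h (V (q j)) + η) * (volume (K j)).toReal ≤ ∫ x in K j, (φ x + 2 * η) := by
      have := setIntegral_ge_of_const_le_real (μ := volume) (s := K j) (f := fun x => φ x + 2 * η)
        (c := jac h (V (q j)) + η) (hKm j) hfinj ?_ hint
      · simpa [measureReal_def, mul_comm] using this
      · intro x hx
        have h2 := hρφ (q j) (hq j) x (hKb j hx)
        rw [hφ]
        linarith
    have h2 : jac h (V (q j)) + η ≤ 1 + η := by linarith [jac_le_one h (V (q j))]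
    have h3 : 0 ≤ (1 + η) ^ 2 := by positivity
    calc _ = (1 + η) ^ 2 * ((jac h (V (q j)) + η) * (volume (K j)).toReal +
          ε' * (jac h (V (q j)) + η)) := by ring
      _ ≤ _ := by
        apply mul_le_mul_of_nonneg_left _ h3
        exact add_le_add h1 (mul_le_mul_of_nonneg_left h2 hε'0.le)
  have hintsum : ∑ j, ∫ x in K j, (φ x + 2 * η) = I₀ + 2 * η * VD := by
    have hint : IntegrableOn (fun x => φ x + 2 * η) D := hφint.add (integrableOn_const hDfin)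
    rw [sum_pieces D K hKm hKU hKd _ hint, integral_add hφint (integrableOn_const hDfin), ← hI₀,
      setIntegral_const, hVD, measureReal_def]
    simp [mul_comm]
  have hfinal : ∑ j, ((volume (K j)).toReal + ε') * (1 + η) ^ 2 * (jac h (V (q j)) + η) ≤ I₀ + ε := by
    calc _ ≤ ∑ j, (1 + η) ^ 2 * ((∫ x in K j, (φ x + 2 * η)) + ε' * (1 + η)) :=
          Finset.sum_le_sum (fun j _ => hone j)
      _ = (1 + η) ^ 2 * (I₀ + 2 * η * VD + (t.card : ℝ) * (ε' * (1 + η))) := by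
          rw [← Finset.mul_sum, Finset.sum_add_distrib, hintsum, Finset.sum_const, Finset.card_univ,
            Fintype.card_fin, nsmul_eq_mul]
      _ ≤ (1 + 3 * η) * (I₀ + η * (2 * VD + 1)) := by
          have h1 : (t.card : ℝ) * (ε' * (1 + η)) ≤ η := by
            rw [hε']
            have h2 : (0 : ℝ) ≤ t.card := by positivity
            have h3 : ((t.card : ℝ) * (1 + η)) ≤ 2 * ((t.card : ℝ) + 1) := by nlinarith
            calc (t.card : ℝ) * (η / (2 * ((t.card : ℝ) + 1)) * (1 + η))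
                = ((t.card : ℝ) * (1 + η)) * (η / (2 * ((t.card : ℝ) + 1))) := by ring
              _ ≤ (2 * ((t.card : ℝ) + 1)) * (η / (2 * ((t.card : ℝ) + 1))) :=
                  mul_le_mul_of_nonneg_right h3 (by positivity)
              _ = η := by field_simp
          have h2 : (1 + η) ^ 2 ≤ 1 + 3 * η := by nlinarith
          have h3 : 0 ≤ I₀ + η * (2 * VD + 1) := by positivity
          calc _ ≤ (1 + η) ^ 2 * (I₀ + η * (2 * VD + 1)) :=
                mul_le_mul_of_nonneg_left (by linarith) (by positivity)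
            _ ≤ _ := mul_le_mul_of_nonneg_right h2 h3
      _ ≤ I₀ + ε := by
          have h1 : 0 ≤ VD * η := by positivity
          have h2 : η * η ≤ η := by nlinarith
          have h3 : η * η * (2 * VD + 1) ≤ η * (2 * VD + 1) :=
            mul_le_mul_of_nonneg_right h2 (by positivity)
          nlinarith
  have hgoal := (hSq.mono hcover hfinal)
  have hint_eq : (∫ p in D, 1 / Real.sqrt (1 + (V p 0) ^ 2 + h ^ 2 * (V p 1) ^ 2)) = I₀ := by
    rw [hI₀, hφ]; rfl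
  rw [hint_eq]
  exact hgoal

end Crest.Agent.S0326
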