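-- Statement S0327: see Crest/Templates/S0327.lean.txt
import Crest.Statements.S0327
import Crest.Agent.Lib.Tetra.Reg

set_option autoImplicit false
open MeasureTheory
open scoped ENNReal
open Crest Crest.GeometryTopology Crest.GeometryTopology.Convex

namespace Crest.Agent.S0327

open Tetra in
/-- Sum of ratios. -/
private lemma ratio_sum {k : ℕ} (x p : Fin k → ℝ) (P Y : ℝ) (hP : 0 < P) (hx : ∀ i, 0 ≤ x i)
    (hp : ∀ i, P ≤ p i) (hY : ∑ i, x i ≤ Y) : ∑ i, x i / p i ≤ Y / P := by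
  have h1 : ∀ i, x i / p i ≤ x i / P := fun i =>
    div_le_div_of_nonneg_left (hx i) hP (hp i)
  calc ∑ i, x i / p i ≤ ∑ i, x i / P := Finset.sum_le_sum (fun i _ => h1 i)
    _ = (∑ i, x i) / P := by rw [Finset.sum_div]
    _ ≤ Y / P := div_le_div_of_nonneg_right hY hP.le

/-- Let K ⊂ ℝ³ be a regular tetrahedron (convex hull of four points with equal pairwise distances ℓ > 0); areas are Lebesgue-normalised 2-dimensional Hausdorff measure, π_v y = y − ⟪y, v⟫ v. (1) Finitely many cylinders Bᵢ + ℝ uᵢ, ‖uᵢ‖ = 1, with parallelogram bases Bᵢ = cᵢ + [0,1]aᵢ + [0,1]bᵢ in uᵢ^⊥ cover K, ∑ᵢ area(Bᵢ) being below half of area(π_v K) by a positive margin for all unit v, and ∑ᵢ area(Bᵢ)/area(π_{uᵢ} K) < 1/2. (2) The same with bounded relatively open subsets of the uᵢ^⊥ as bases. -/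
theorem result
    (w : Fin 4 → EuclideanSpace ℝ (Fin 3)) (ℓ : ℝ) (hℓ : 0 < ℓ)
    (hw : ∀ i j, i ≠ j → dist (w i) (w j) = ℓ) :
    (∃ (k : ℕ) (u c a b : Fin k → EuclideanSpace ℝ (Fin 3)),
      (∀ i, ‖u i‖ = 1) ∧
      (∀ i, inner ℝ (c i) (u i) = 0 ∧ inner ℝ (a i) (u i) = 0 ∧ inner ℝ (b i) (u i) = 0) ∧
      convexHull ℝ (Set.range w) ⊆ ⋃ i, {x : EuclideanSpace ℝ (Fin 3) |
        ∃ s ∈ Set.Icc (0 : ℝ) 1, ∃ t ∈ Set.Icc (0 : ℝ) 1, ∃ τ : ℝ, x = c i + s • a i + t • b i + τ • u i} ∧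
      (∃ δ : ℝ, 0 < δ ∧ ∀ v : EuclideanSpace ℝ (Fin 3), ‖v‖ = 1 →
        (∑ i, (μHE[2] {x : EuclideanSpace ℝ (Fin 3) |
            ∃ s ∈ Set.Icc (0 : ℝ) 1, ∃ t ∈ Set.Icc (0 : ℝ) 1, x = c i + s • a i + t • b i}).toReal) + δ ≤
          (μHE[2] ((fun y => y - inner ℝ y v • v) '' convexHull ℝ (Set.range w))).toReal / 2) ∧
      ∑ i, (μHE[2] {x : EuclideanSpace ℝ (Fin 3) |
            ∃ s ∈ Set.Icc (0 : ℝ) 1, ∃ t ∈ Set.Icc (0 : ℝ) 1, x = c i + s • a i + t • b i}).toReal /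
          (μHE[2] ((fun y => y - inner ℝ y (u i) • u i) '' convexHull ℝ (Set.range w))).toReal < 1 / 2) ∧
    (∃ (k : ℕ) (u : Fin k → EuclideanSpace ℝ (Fin 3)) (B : Fin k → Set (EuclideanSpace ℝ (Fin 3))),
      (∀ i, ‖u i‖ = 1) ∧
      (∀ i, Bornology.IsBounded (B i) ∧ ∃ O : Set (EuclideanSpace ℝ (Fin 3)), IsOpen O ∧
        B i = O ∩ {x | inner ℝ x (u i) = 0}) ∧
      convexHull ℝ (Set.range w) ⊆
        ⋃ i, {x : EuclideanSpace ℝ (Fin 3) | ∃ y ∈ B i, ∃ τ : ℝ, x = y + τ • u i} ∧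
      (∃ δ : ℝ, 0 < δ ∧ ∀ v : EuclideanSpace ℝ (Fin 3), ‖v‖ = 1 →
        (∑ i, (μHE[2] (B i)).toReal) + δ ≤
          (μHE[2] ((fun y => y - inner ℝ y v • v) '' convexHull ℝ (Set.range w))).toReal / 2) ∧
      ∑ i, (μHE[2] (B i)).toReal /
          (μHE[2] ((fun y => y - inner ℝ y (u i) • u i) '' convexHull ℝ (Set.range w))).toReal < 1 / 2) := by
  obtain ⟨k, u, c, a, b, T, hT, hT0, h1, h2, h3, h4, h5, h6⟩ := Tetra.para_cover_reg w ℓ hℓ hw
  have hs := Tetra.sqrt2_pos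
  obtain ⟨P, hP⟩ : ∃ P, P = (ℓ / 2) ^ 2 * Real.sqrt 2 := ⟨_, rfl⟩
  have hP0 : 0 < P := by rw [hP]; positivity
  rw [← hP] at h5 h6
  constructor
  · refine ⟨k, u, c, a, b, h1, h2, ?_, ⟨P * (1 / 2 - T), ?_, ?_⟩, ?_⟩
    · intro x hx
      have := h4 hx
      rw [Set.mem_iUnion] at this ⊢
      obtain ⟨i, y, ⟨s, hs', t, ht, rfl⟩, τ, rfl⟩ := this
      exact ⟨i, s, hs', t, ht, τ, rfl⟩
    · have : 0 < 1 / 2 - T := by linarith
      positivity
    · intro v hv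
      have h7 := h6 v hv
      have h8 : ∀ i, (μHE[2] {x : EuclideanSpace ℝ (Fin 3) |
            ∃ s ∈ Set.Icc (0 : ℝ) 1, ∃ t ∈ Set.Icc (0 : ℝ) 1, x = c i + s • a i + t • b i}).toReal =
          Tetra.gram (a i) (b i) := fun i => Tetra.muHE_para_toReal _ _ _
      simp_rw [h8]
      have h9 : P * T + P * (1 / 2 - T) = P / 2 := by ring
      change _ ≤ (μHE[2] (Tetra.prj v '' convexHull ℝ (Set.range w))).toReal / 2
      linarith
    · have h8 : ∀ i, (μHE[2] {x : EuclideanSpace ℝ (Fin 3) |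
            ∃ s ∈ Set.Icc (0 : ℝ) 1, ∃ t ∈ Set.Icc (0 : ℝ) 1, x = c i + s • a i + t • b i}).toReal =
          Tetra.gram (a i) (b i) := fun i => Tetra.muHE_para_toReal _ _ _
      simp_rw [h8]
      have h9 := ratio_sum (fun i => Tetra.gram (a i) (b i))
        (fun i => (μHE[2] (Tetra.prj (u i) '' convexHull ℝ (Set.range w))).toReal) P (P * T) hP0
        (fun i => Tetra.gram_nonneg _ _) (fun i => h6 _ (h1 i)) h5
      have e : P * T / P = T := by field_simp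
      rw [e] at h9
      exact lt_of_le_of_lt h9 hT
  · -- the open version
    set θ := 1 / 2 - T with hθ
    have hθ0 : 0 < θ := by linarith
    set η := min (1 / 2) (θ / 6) with hη
    have hη0 : 0 < η := lt_min (by norm_num) (by positivity)
    have hη1 : η ≤ 1 / 2 := min_le_left _ _
    have hη2 : η ≤ θ / 6 := min_le_right _ _
    choose B hB1 hB2 hB3 hB4 using fun i =>
      Tetra.open_para (u i) (c i) (a i) (b i) (h1 i) (h2 i).1 (h2 i).2.1 (h2 i).2.2 (h3 i) η hη0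
    have hfac : (1 + 2 * η) ^ 2 * T ≤ T + θ / 2 := by
      have h7 : (1 + 2 * η) ^ 2 ≤ 1 + 6 * η := by nlinarith
      have h8 := mul_le_mul_of_nonneg_right h7 hT0
      have h9 : 6 * η * T ≤ 6 * η * (1 / 2) := mul_le_mul_of_nonneg_left hT.le (by positivity)
      nlinarith
    have hsum : ∑ i, (μHE[2] (B i)).toReal ≤ P * (T + θ / 2) := by
      calc ∑ i, (μHE[2] (B i)).toReal ≤ ∑ i, (1 + 2 * η) ^ 2 * Tetra.gram (a i) (b i) :=
            Finset.sum_le_sum (fun i _ => hB4 i)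
        _ = (1 + 2 * η) ^ 2 * ∑ i, Tetra.gram (a i) (b i) := by rw [Finset.mul_sum]
        _ ≤ (1 + 2 * η) ^ 2 * (P * T) := mul_le_mul_of_nonneg_left h5 (by positivity)
        _ = P * ((1 + 2 * η) ^ 2 * T) := by ring
        _ ≤ P * (T + θ / 2) := mul_le_mul_of_nonneg_left hfac hP0.le
    refine ⟨k, u, B, h1, fun i => ⟨hB1 i, hB2 i⟩, ?_, ⟨P * (θ / 2), by positivity, ?_⟩, ?_⟩
    · intro x hx
      have := h4 hx
      rw [Set.mem_iUnion] at this ⊢
      obtain ⟨i, y, hy, τ, rfl⟩ := this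
      exact ⟨i, y, hB3 i hy, τ, rfl⟩
    · intro v hv
      have h7 := h6 v hv
      change _ ≤ (μHE[2] (Tetra.prj v '' convexHull ℝ (Set.range w))).toReal / 2
      have h9 : P * (T + θ / 2) + P * (θ / 2) = P / 2 := by
        rw [hθ]; ring
      linarith
    · have h9 := ratio_sum (fun i => (μHE[2] (B i)).toReal)
        (fun i => (μHE[2] (Tetra.prj (u i) '' convexHull ℝ (Set.range w))).toReal) P
        (P * (T + θ / 2)) hP0 (fun i => ENNReal.toReal_nonneg) (fun i => h6 _ (h1 i)) hsum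
      have e : P * (T + θ / 2) / P = T + θ / 2 := by field_simp
      rw [e] at h9
      refine lt_of_le_of_lt h9 ?_
      rw [hθ]; linarith

end Crest.Agent.S0327
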