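-- Statement S0328: see Crest/Templates/S0328.lean.txt
import Crest.Statements.S0328
import Crest.Agent.Lib.Tetra.Rad2

set_option autoImplicit false
open MeasureTheory
open scoped ENNReal
open Crest Crest.GeometryTopology Crest.GeometryTopology.Convex

namespace Crest.Agent.S0328

open Tetra

private lemma final_sum {N : ℕ} (V Y Δ' : Fin N → ℝ) (κ ε₀ I B : ℝ)
    (hY : ∀ i, V i - κ * ε₀ * Δ' i ≤ Y i ∧ Y i ≤ V i + κ * ε₀ * Δ' i)
    (hV : |∑ i, V i - κ * I| ≤ κ * ε₀ * B) (hΔ : ∑ i, Δ' i = B) :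
    |∑ i, Y i - κ * I| ≤ 2 * κ * ε₀ * B := by
  have h1 : ∑ i, Y i ≤ ∑ i, V i + κ * ε₀ * B := by
    rw [← hΔ, Finset.mul_sum, ← Finset.sum_add_distrib]
    exact Finset.sum_le_sum (fun i _ => (hY i).2)
  have h2 : ∑ i, V i - κ * ε₀ * B ≤ ∑ i, Y i := by
    rw [← hΔ, Finset.mul_sum, ← Finset.sum_sub_distrib]
    exact Finset.sum_le_sum (fun i _ => (hY i).1)
  have h3 := abs_le.mp hV
  rw [abs_le]; constructor <;> linarith [h3.1, h3.2]

set_option maxHeartbeats 4000000 in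
/-- Unit e; a, b, p₀ ∈ e^⊥, a, b independent; α < β; L > 0; R ≥ 0, λ both continuous on [α, β]; w(t) ∈ e^⊥, w′ = λ(t)(a + tb). S = {p₀ + ρ(a + t b) + s(e + w t) : α ≤ t ≤ β, 0 ≤ ρ ≤ R t, ‖s‖ ≤ L}; A = κ ∫_α^β R²/(2√(1 + ‖w‖²)), κ = area spanned by a, b. For η > 0 a δ > 0 makes each partition t₀ < … < t_N of [α, β] of mesh ≤ δ, tags cᵢ, admit N cylinders (axes e + w(cᵢ), nondegenerate triangle bases) covering S, total area within η of A; same for S's pieces tᵢ ≤ t ≤ tᵢ₊₁ projected along these axes. -/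
theorem result
    (e a b p₀ : EuclideanSpace ℝ (Fin 3)) (he : ‖e‖ = 1)
    (ha : inner ℝ a e = 0) (hb : inner ℝ b e = 0) (hp₀ : inner ℝ p₀ e = 0)
    (hab : LinearIndependent ℝ ![a, b]) (L : ℝ) (hL : 0 < L) (α β : ℝ) (hαβ : α < β)
    (R : ℝ → ℝ) (hR : ContinuousOn R (Set.Icc α β)) (hR0 : ∀ t ∈ Set.Icc α β, 0 ≤ R t)
    (w : ℝ → EuclideanSpace ℝ (Fin 3)) (hw : ∀ t ∈ Set.Icc α β, inner ℝ (w t) e = 0)
    (lam : ℝ → ℝ) (hlam : ContinuousOn lam (Set.Icc α β))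
    (hw' : ∀ t ∈ Set.Icc α β, HasDerivWithinAt w (lam t • (a + t • b)) (Set.Icc α β) t)
    (η : ℝ) (hη : 0 < η) :
    ∃ δ : ℝ, 0 < δ ∧ ∀ (N : ℕ) (t : Fin (N + 1) → ℝ) (c : Fin N → ℝ),
      StrictMono t → t 0 = α → t (Fin.last N) = β →
      (∀ i : Fin N, t i.succ - t i.castSucc ≤ δ) →
      (∀ i : Fin N, t i.castSucc ≤ c i ∧ c i ≤ t i.succ) →
      (∃ (p q r : Fin N → EuclideanSpace ℝ (Fin 3)),
        (∀ i, inner ℝ (p i) (e + w (c i)) = 0 ∧ inner ℝ (q i) (e + w (c i)) = 0 ∧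
          inner ℝ (r i) (e + w (c i)) = 0) ∧
        (∀ i, AffineIndependent ℝ ![p i, q i, r i]) ∧
        {x : EuclideanSpace ℝ (Fin 3) | ∃ τ ∈ Set.Icc α β, ∃ ρ ∈ Set.Icc 0 (R τ), ∃ s : ℝ, abs s ≤ L ∧
            x = p₀ + ρ • (a + τ • b) + s • (e + w τ)} ⊆
          ⋃ i, {x : EuclideanSpace ℝ (Fin 3) | ∃ y ∈ convexHull ℝ {p i, q i, r i}, ∃ σ : ℝ,
            x = y + σ • (e + w (c i))} ∧
        abs ((∑ i, (μHE[2] (convexHull ℝ ({p i, q i, r i} : Set (EuclideanSpace ℝ (Fin 3))))).toReal) -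
            Real.sqrt (‖a‖ ^ 2 * ‖b‖ ^ 2 - inner ℝ a b ^ 2) *
              ∫ τ in α..β, R τ ^ 2 / (2 * Real.sqrt (1 + ‖w τ‖ ^ 2))) ≤ η) ∧
      abs ((∑ i : Fin N, (μHE[2] ((fun y => y - (inner ℝ y (e + w (c i)) / ‖e + w (c i)‖ ^ 2) • (e + w (c i))) ''
            {x : EuclideanSpace ℝ (Fin 3) | ∃ τ ∈ Set.Icc (t i.castSucc) (t i.succ), ∃ ρ ∈ Set.Icc 0 (R τ),
              ∃ s : ℝ, abs s ≤ L ∧ x = p₀ + ρ • (a + τ • b) + s • (e + w τ)})).toReal) -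
          Real.sqrt (‖a‖ ^ 2 * ‖b‖ ^ 2 - inner ℝ a b ^ 2) *
            ∫ τ in α..β, R τ ^ 2 / (2 * Real.sqrt (1 + ‖w τ‖ ^ 2))) ≤ η := by
  have hG : 0 < gram a b := gram_pos_of_indep a b hab
  have hκ_eq : Real.sqrt (‖a‖ ^ 2 * ‖b‖ ^ 2 - inner ℝ a b ^ 2) = gram a b := rfl
  rw [hκ_eq] 
  obtain ⟨κ, hκ⟩ : ∃ κ, κ = gram a b := ⟨_, rfl⟩
  have hκ0 : 0 < κ := by rw [hκ]; exact hG
  have hcI : IsCompact (Set.Icc α β) := isCompact_Icc
  obtain ⟨Lam0, hLam0⟩ := hcI.exists_bound_of_continuousOn hlam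
  obtain ⟨Rh0, hRh0⟩ := hcI.exists_bound_of_continuousOn hR
  obtain ⟨Lam, hLamdef⟩ : ∃ Lam, Lam = max Lam0 0 := ⟨_, rfl⟩
  obtain ⟨Rh, hRhdef⟩ : ∃ Rh, Rh = max Rh0 0 := ⟨_, rfl⟩
  have hLamnn : 0 ≤ Lam := by rw [hLamdef]; exact le_max_right _ _
  have hRhnn : 0 ≤ Rh := by rw [hRhdef]; exact le_max_right _ _
  have hLam : ∀ t ∈ Set.Icc α β, |lam t| ≤ Lam := fun t ht => by
    rw [hLamdef]; exact le_trans (hLam0 t ht) (le_max_left _ _)
  have hRh : ∀ t ∈ Set.Icc α β, R t ≤ Rh := fun t ht => by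
    rw [hRhdef]
    exact le_trans (le_abs_self _) (le_trans (hRh0 t ht) (le_max_left _ _))
  have hwc : ContinuousOn w (Set.Icc α β) := fun t ht => (hw' t ht).continuousWithinAt
  -- the integrand
  let F : ℝ → ℝ := fun τ => R τ ^ 2 / (2 * Real.sqrt (1 + ‖w τ‖ ^ 2))
  have hsqpos : ∀ τ : ℝ, 0 < Real.sqrt (1 + ‖w τ‖ ^ 2) := fun τ => Real.sqrt_pos.mpr (by positivity)
  have hsqge : ∀ τ : ℝ, 1 ≤ Real.sqrt (1 + ‖w τ‖ ^ 2) := fun τ => by
    rw [Real.one_le_sqrt]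
    nlinarith [sq_nonneg ‖w τ‖]
  have hF : ContinuousOn F (Set.Icc α β) := by
    apply (hR.pow 2).div
    · apply continuousOn_const.mul
      exact (continuousOn_const.add (hwc.norm.pow 2)).sqrt
    · intro τ _
      have := hsqpos τ
      positivity
  -- the parameters
  have hβα : 0 < β - α := by linarith
  obtain ⟨ε₀, hε₀def⟩ : ∃ ε₀, ε₀ = η / (2 * κ * (β - α)) := ⟨_, rfl⟩
  have hε₀ : 0 < ε₀ := by rw [hε₀def]; positivity
  obtain ⟨θ, hθdef⟩ : ∃ θ, θ = ε₀ / (3 * (Rh + 1) ^ 2) := ⟨_, rfl⟩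
  have hθ : 0 < θ := by rw [hθdef]; positivity
  obtain ⟨ξ, hξdef⟩ : ∃ ξ, ξ = min 1 (ε₀ / (3 * (Rh + 1))) := ⟨_, rfl⟩
  have hξ0 : 0 < ξ := by rw [hξdef]; exact lt_min one_pos (by positivity)
  have hξ1 : ξ ≤ 1 := by rw [hξdef]; exact min_le_left _ _
  have hξ2 : ξ * (3 * (Rh + 1)) ≤ ε₀ := by
    have : ξ ≤ ε₀ / (3 * (Rh + 1)) := by rw [hξdef]; exact min_le_right _ _
    rwa [le_div_iff₀ (by positivity)] at this
  obtain ⟨ω, hωdef⟩ : ∃ ω, ω = ξ / 2 := ⟨_, rfl⟩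
  have hω0 : 0 < ω := by rw [hωdef]; positivity
  obtain ⟨K, hKdef⟩ : ∃ K, K = L * Lam := ⟨_, rfl⟩
  have hK0 : 0 ≤ K := by rw [hKdef]; positivity
  obtain ⟨δ₁, hδ₁, hUCR⟩ := Metric.uniformContinuousOn_iff.mp
    (hcI.uniformContinuousOn_of_continuous hR) ω hω0
  obtain ⟨δ₃, hδ₃, hUCF⟩ := Metric.uniformContinuousOn_iff.mp
    (hcI.uniformContinuousOn_of_continuous hF) ε₀ hε₀
  obtain ⟨δ₂, hδ₂def⟩ : ∃ δ₂, δ₂ = ξ / (4 * (K + 1) * (1 + 1 / θ)) := ⟨_, rfl⟩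
  have hδ₂ : 0 < δ₂ := by rw [hδ₂def]; positivity
  refine ⟨min (δ₁ / 2) (min (δ₃ / 2) δ₂), lt_min (by positivity) (lt_min (by positivity) hδ₂), ?_⟩
  intro N t c hmono ht0 htl hmesh hc
  have hmesh1 : ∀ i : Fin N, t i.succ - t i.castSucc ≤ δ₁ / 2 := fun i =>
    le_trans (hmesh i) (min_le_left _ _)
  have hmesh3 : ∀ i : Fin N, t i.succ - t i.castSucc ≤ δ₃ / 2 := fun i =>
    le_trans (hmesh i) (le_trans (min_le_right _ _) (min_le_left _ _))
  have hmesh2 : ∀ i : Fin N, t i.succ - t i.castSucc ≤ δ₂ := fun i =>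
    le_trans (hmesh i) (le_trans (min_le_right _ _) (min_le_right _ _))
  have hlow : ∀ j : Fin (N + 1), α ≤ t j := fun j => by
    rw [← ht0]; exact hmono.monotone (Fin.zero_le _)
  have hupp : ∀ j : Fin (N + 1), t j ≤ β := fun j => by
    rw [← htl]; exact hmono.monotone (Fin.le_last _)
  have hcell : ∀ i : Fin N, t i.castSucc < t i.succ := fun i => hmono (Fin.castSucc_lt_succ)
  have hcm : ∀ i : Fin N, c i ∈ Set.Icc α β := fun i =>
    ⟨le_trans (hlow _) (hc i).1, le_trans (hc i).2 (hupp _)⟩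
  have hsubcell : ∀ (i : Fin N) (τ : ℝ), τ ∈ Set.Icc (t i.castSucc) (t i.succ) → τ ∈ Set.Icc α β :=
    fun i τ hτ => ⟨le_trans (hlow _) hτ.1, le_trans hτ.2 (hupp _)⟩
  -- distance within a cell
  have hdist : ∀ (i : Fin N) (τ : ℝ), τ ∈ Set.Icc (t i.castSucc) (t i.succ) →
      |τ - c i| ≤ t i.succ - t i.castSucc := by
    intro i τ hτ
    rw [abs_le]; constructor <;> linarith [hτ.1, hτ.2, (hc i).1, (hc i).2]
  have hRclose : ∀ (i : Fin N) (τ : ℝ), τ ∈ Set.Icc (t i.castSucc) (t i.succ) →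
      |R τ - R (c i)| ≤ ω := by
    intro i τ hτ
    have h1 := hUCR τ (hsubcell i τ hτ) (c i) (hcm i) (by
      rw [Real.dist_eq]
      have := hdist i τ hτ
      have := hmesh1 i
      linarith)
    rw [Real.dist_eq] at h1
    exact h1.le
  have hFclose : ∀ (i : Fin N) (τ : ℝ), τ ∈ Set.Icc (t i.castSucc) (t i.succ) →
      |F τ - F (c i)| ≤ ε₀ := by
    intro i τ hτ
    have h1 := hUCF τ (hsubcell i τ hτ) (c i) (hcm i) (by
      rw [Real.dist_eq]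
      have := hdist i τ hτ
      have := hmesh3 i
      linarith)
    rw [Real.dist_eq] at h1
    exact h1.le
  -- the cell data
  let Δ' : Fin N → ℝ := fun i => t i.succ - t i.castSucc
  let ζ : Fin N → ℝ := fun i => K * Δ' i * (1 + 1 / θ)
  let Rb : Fin N → ℝ := fun i => R (c i) + ω
  let H : Fin N → ℝ := fun i => Rb i + 2 * ζ i
  let Rl : Fin N → ℝ := fun i => max (R (c i) - ω) 0
  let d : Fin N → E3 := fun i => e + w (c i)
  have hwci : ∀ i, inner ℝ (w (c i)) e = (0 : ℝ) := fun i => hw _ (hcm i)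
  have hd : ∀ i, d i ≠ 0 := fun i => axis_ne e _ he (hwci i)
  have hΔ'0 : ∀ i, 0 < Δ' i := fun i => sub_pos.mpr (hcell i)
  have hζ0 : ∀ i, 0 ≤ ζ i := fun i => by
    have := hΔ'0 i
    simp only [ζ]; positivity
  have hRc0 : ∀ i, 0 ≤ R (c i) := fun i => hR0 _ (hcm i)
  have hRb0 : ∀ i, 0 < Rb i := fun i => by
    have := hRc0 i
    simp only [Rb]; linarith
  have hH0 : ∀ i, 0 < H i := fun i => by
    have := hRb0 i
    have := hζ0 i
    simp only [H]; linarith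
  have hζle : ∀ i, 2 * ζ i ≤ ξ / 2 := by
    intro i
    have h1 : K * Δ' i ≤ (K + 1) * δ₂ := mul_le_mul (by linarith) (hmesh2 i) (hΔ'0 i).le (by linarith)
    have h2 : ζ i ≤ (K + 1) * δ₂ * (1 + 1 / θ) := mul_le_mul_of_nonneg_right h1 (by positivity)
    have h3 : (K + 1) * δ₂ * (1 + 1 / θ) = ξ / 4 := by
      rw [hδ₂def]; field_simp
    rw [h3] at h2
    linarith
  have hRbcover : ∀ (i : Fin N) (τ : ℝ), τ ∈ Set.Icc (t i.castSucc) (t i.succ) → R τ ≤ Rb i := by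
    intro i τ hτ
    have := (abs_le.mp (hRclose i τ hτ)).2
    simp only [Rb]; linarith
  have hRlcover : ∀ (i : Fin N) (τ : ℝ), τ ∈ Set.Icc (t i.castSucc) (t i.succ) → Rl i ≤ R τ := by
    intro i τ hτ
    have h1 := (abs_le.mp (hRclose i τ hτ)).1
    simp only [Rl]
    apply max_le (by linarith) (hR0 _ (hsubcell i τ hτ))
  -- vertices
  let P : Fin N → E3 := fun i => cP p₀ a b (c i) (ζ i)
  let Q : Fin N → E3 := fun i => cQ p₀ a b (c i) (t i.castSucc) (t i.succ) θ (ζ i) (H i)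
  let S : Fin N → E3 := fun i => cS p₀ a b (c i) (t i.castSucc) (t i.succ) θ (ζ i) (H i)
  -- the covering property of a cell
  have hcellcover : ∀ (i : Fin N) (τ ρ s : ℝ), τ ∈ Set.Icc (t i.castSucc) (t i.succ) → ρ ∈ Set.Icc 0 (R τ) →
      |s| ≤ L → ∃ y ∈ convexHull ℝ {P i, Q i, S i},
        p₀ + ρ • (a + τ • b) + s • (e + w τ) = y + s • (e + w (c i)) := by
    intro i τ ρ s hτ hρ hs
    exact cell_cover e a b p₀ he ha hb hG α β w hw lam Lam hLam hw' L hL.le (c i) (t i.castSucc) (t i.succ) θ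
      (ζ i) (H i) (Rb i) τ ρ s hθ (hlow _) (hupp _) (hc i).1 (hc i).2 (hcell i) hτ.1 hτ.2 hρ.1
      (le_trans hρ.2 (hRbcover i τ hτ)) (hRb0 i) hs (by simp only [ζ, Δ', hKdef]) rfl
  -- areas
  have harea : ∀ i : Fin N, (μHE[2] (convexHull ℝ {prj (unitOf (d i)) (P i), prj (unitOf (d i)) (Q i),
      prj (unitOf (d i)) (S i)})).toReal =
      κ * ((1 + 2 * θ) * H i ^ 2 / (2 * Real.sqrt (1 + ‖w (c i)‖ ^ 2))) * Δ' i := by
    intro i
    rw [hκ]
    exact cell_area e a b p₀ (w (c i)) he ha hb hG (hwci i) (c i) _ _ θ (ζ i) (H i) hθ (hc i).1 (hc i).2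
      (hcell i) (hH0 i)
  have hlowarea : ∀ i : Fin N, (μHE[2] (convexHull ℝ {prj (unitOf (d i)) p₀,
      prj (unitOf (d i)) (p₀ + Rl i • (a + t i.castSucc • b)),
      prj (unitOf (d i)) (p₀ + Rl i • (a + t i.succ • b))})).toReal =
      κ * (Rl i ^ 2 / (2 * Real.sqrt (1 + ‖w (c i)‖ ^ 2))) * Δ' i := by
    intro i
    rw [hκ]
    exact low_tri_area e a b p₀ (w (c i)) he ha hb hG (hwci i) _ _ (Rl i) (hcell i)
  -- the value of a cell
  let V : Fin N → ℝ := fun i => κ * F (c i) * Δ' i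
  have hclaim1 : ∀ i, V i ≤ κ * ((1 + 2 * θ) * H i ^ 2 / (2 * Real.sqrt (1 + ‖w (c i)‖ ^ 2))) * Δ' i ∧
      κ * ((1 + 2 * θ) * H i ^ 2 / (2 * Real.sqrt (1 + ‖w (c i)‖ ^ 2))) * Δ' i ≤ V i + κ * ε₀ * Δ' i := by
    intro i
    obtain ⟨D, hD⟩ : ∃ D, D = Real.sqrt (1 + ‖w (c i)‖ ^ 2) := ⟨_, rfl⟩
    have hD1 : 1 ≤ D := by rw [hD]; exact hsqge _
    have hD0 : 0 < D := by linarith
    obtain ⟨ξi, hξi⟩ : ∃ ξi, ξi = ω + 2 * ζ i := ⟨_, rfl⟩
    have hξi0 : 0 ≤ ξi := by have := hζ0 i; rw [hξi]; linarith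
    have hξile : ξi ≤ ξ := by have := hζle i; rw [hξi, hωdef]; linarith
    have hHe : H i = R (c i) + ξi := by simp only [H, Rb]; rw [hξi]; ring
    have hRc := hRc0 i
    have hRcle := hRh _ (hcm i)
    have hFc : F (c i) = R (c i) ^ 2 / (2 * D) := by simp only [F]; rw [← hD]
    obtain ⟨E, hE⟩ : ∃ E, E = (1 + 2 * θ) * H i ^ 2 - R (c i) ^ 2 := ⟨_, rfl⟩
    have hE0 : 0 ≤ E := by
      rw [hE, hHe]
      have : 0 ≤ θ * (R (c i) + ξi) ^ 2 := by positivity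
      nlinarith [mul_nonneg hRc hξi0, sq_nonneg ξi]
    have hE1 : E ≤ 2 * ε₀ := by
      rw [hE, hHe]
      have h1 : (R (c i) + ξi) ^ 2 ≤ (Rh + 1) ^ 2 := by
        apply pow_le_pow_left₀ (by positivity)
        linarith
      have h2 : θ * (R (c i) + ξi) ^ 2 ≤ θ * (Rh + 1) ^ 2 := mul_le_mul_of_nonneg_left h1 hθ.le
      have h3 : θ * (Rh + 1) ^ 2 = ε₀ / 3 := by
        rw [hθdef]; field_simp
      have h4 : R (c i) * ξi ≤ (Rh + 1) * ξ := mul_le_mul (by linarith) hξile hξi0 (by linarith)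
      have h5 : (Rh + 1) * ξ ≤ ε₀ / 3 := by nlinarith
      have h6 : ξi ^ 2 ≤ ξ := by
        have : ξi ^ 2 ≤ ξ ^ 2 := pow_le_pow_left₀ hξi0 hξile 2
        nlinarith
      have h7 : ξ ≤ ε₀ / 3 := by nlinarith [mul_nonneg hRhnn hξ0.le]
      have e1 : (1 + 2 * θ) * (R (c i) + ξi) ^ 2 - R (c i) ^ 2 =
        2 * (θ * (R (c i) + ξi) ^ 2) + 2 * (R (c i) * ξi) + ξi ^ 2 := by ring
      rw [e1]
      linarith
    have hrew : (1 + 2 * θ) * H i ^ 2 = R (c i) ^ 2 + E := by rw [hE]; ring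
    rw [← hD, hrew]
    have hV : V i = κ * (R (c i) ^ 2 / (2 * D)) * Δ' i := by simp only [V]; rw [hFc]
    rw [hV]
    have hsplit : κ * ((R (c i) ^ 2 + E) / (2 * D)) * Δ' i =
        κ * (R (c i) ^ 2 / (2 * D)) * Δ' i + κ * (E / (2 * D)) * Δ' i := by ring
    rw [hsplit]
    have hEq0 : 0 ≤ E / (2 * D) := by positivity
    have hEq1 : E / (2 * D) ≤ ε₀ := by
      rw [div_le_iff₀ (by positivity)]
      nlinarith
    have hΔp := hΔ'0 i
    constructor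
    · have : 0 ≤ κ * (E / (2 * D)) * Δ' i := by positivity
      linarith
    · have : κ * (E / (2 * D)) * Δ' i ≤ κ * ε₀ * Δ' i := by
        apply mul_le_mul_of_nonneg_right _ hΔp.le
        exact mul_le_mul_of_nonneg_left hEq1 hκ0.le
      linarith
  have hclaim2 : ∀ i, V i - κ * ε₀ * Δ' i ≤ κ * (Rl i ^ 2 / (2 * Real.sqrt (1 + ‖w (c i)‖ ^ 2))) * Δ' i := by
    intro i
    obtain ⟨D, hD⟩ : ∃ D, D = Real.sqrt (1 + ‖w (c i)‖ ^ 2) := ⟨_, rfl⟩
    have hD1 : 1 ≤ D := by rw [hD]; exact hsqge _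
    have hD0 : 0 < D := by linarith
    have hRc := hRc0 i
    have hRcle := hRh _ (hcm i)
    have hFc : F (c i) = R (c i) ^ 2 / (2 * D) := by simp only [F]; rw [← hD]
    have hV : V i = κ * (R (c i) ^ 2 / (2 * D)) * Δ' i := by simp only [V]; rw [hFc]
    have hdiff : R (c i) ^ 2 - Rl i ^ 2 ≤ 2 * ε₀ := by
      have hω : 2 * R (c i) * ω ≤ ε₀ := by
        have : R (c i) * ξ ≤ (Rh + 1) * ξ := mul_le_mul_of_nonneg_right (by linarith) hξ0.le
        rw [hωdef]; nlinarith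
      simp only [Rl]
      rcases le_total (R (c i) - ω) 0 with h | h
      · rw [max_eq_right h]
        have : R (c i) ≤ ω := by linarith
        have : R (c i) ^ 2 ≤ R (c i) * ω := by nlinarith
        nlinarith [mul_nonneg hRc hω0.le]
      · rw [max_eq_left h]
        nlinarith [sq_nonneg ω]
    rw [← hD, hV]
    have hsplit : κ * (R (c i) ^ 2 / (2 * D)) * Δ' i - κ * (Rl i ^ 2 / (2 * D)) * Δ' i =
        κ * ((R (c i) ^ 2 - Rl i ^ 2) / (2 * D)) * Δ' i := by ring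
    have hq : (R (c i) ^ 2 - Rl i ^ 2) / (2 * D) ≤ ε₀ := by
      rw [div_le_iff₀ (by positivity)]
      nlinarith
    have : κ * ((R (c i) ^ 2 - Rl i ^ 2) / (2 * D)) * Δ' i ≤ κ * ε₀ * Δ' i := by
      apply mul_le_mul_of_nonneg_right _ (hΔ'0 i).le
      exact mul_le_mul_of_nonneg_left hq hκ0.le
    linarith
  -- Riemann sum
  have hintble : ∀ x y, x ∈ Set.Icc α β → y ∈ Set.Icc α β → IntervalIntegrable F volume x y := by
    intro x y hx hy
    apply ContinuousOn.intervalIntegrable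
    exact hF.mono (Set.uIcc_subset_Icc hx hy)
  have hcellint : ∀ i : Fin N, |(∫ τ in (t i.castSucc)..(t i.succ), F τ) - F (c i) * Δ' i| ≤ ε₀ * Δ' i := by
    intro i
    have hi0 : t i.castSucc ∈ Set.Icc α β := ⟨hlow _, hupp _⟩
    have hi1 : t i.succ ∈ Set.Icc α β := ⟨hlow _, hupp _⟩
    have h1 : (∫ τ in (t i.castSucc)..(t i.succ), F τ) - F (c i) * Δ' i =
        ∫ τ in (t i.castSucc)..(t i.succ), (F τ - F (c i)) := by
      rw [intervalIntegral.integral_sub (hintble _ _ hi0 hi1) (continuous_const.intervalIntegrable _ _),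
        intervalIntegral.integral_const, smul_eq_mul]
      simp only [Δ']
      ring
    rw [h1]
    have h2 := intervalIntegral.norm_integral_le_of_norm_le_const (a := t i.castSucc) (b := t i.succ)
      (f := fun τ => F τ - F (c i)) (C := ε₀) (by
        intro τ hτ
        rw [Set.uIoc_of_le (hcell i).le] at hτ
        exact hFclose i τ ⟨hτ.1.le, hτ.2⟩)
    rw [Real.norm_eq_abs, abs_of_pos (sub_pos.mpr (hcell i))] at h2
    exact h2
  obtain ⟨I, hI⟩ : ∃ I, I = ∫ τ in α..β, R τ ^ 2 / (2 * Real.sqrt (1 + ‖w τ‖ ^ 2)) := ⟨_, rfl⟩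
  have hαm : α ∈ Set.Icc α β := ⟨le_rfl, hαβ.le⟩
  have hsumint : ∑ i : Fin N, (∫ τ in (t i.castSucc)..(t i.succ), F τ) = I := by
    have h1 : ∀ i : Fin N, (∫ τ in (t i.castSucc)..(t i.succ), F τ) =
        (∫ τ in α..(t i.succ), F τ) - ∫ τ in α..(t i.castSucc), F τ := by
      intro i
      have hi0 : t i.castSucc ∈ Set.Icc α β := ⟨hlow _, hupp _⟩
      have hi1 : t i.succ ∈ Set.Icc α β := ⟨hlow _, hupp _⟩
      rw [intervalIntegral.integral_interval_sub_left (hintble _ _ hαm hi1) (hintble _ _ hαm hi0)]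
    simp_rw [h1]
    rw [fin_telescope N (fun j => ∫ τ in α..(t j), F τ), htl, ht0, hI]
    simp [F]
  have hsumΔ : ∑ i, Δ' i = β - α := by
    have := fin_telescope N t
    rw [htl, ht0] at this
    exact this
  have hVsum : |∑ i, V i - κ * I| ≤ κ * ε₀ * (β - α) := by
    have e1 : ∑ i, V i - κ * I = κ * ∑ i : Fin N, (F (c i) * Δ' i - ∫ τ in (t i.castSucc)..(t i.succ), F τ) := by
      rw [Finset.sum_sub_distrib, hsumint, mul_sub, Finset.mul_sum]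
      congr 1
      refine Finset.sum_congr rfl (fun i _ => ?_)
      simp only [V]; ring
    rw [e1, abs_mul, abs_of_pos hκ0, mul_assoc]
    apply mul_le_mul_of_nonneg_left _ hκ0.le
    calc |∑ i : Fin N, (F (c i) * Δ' i - ∫ τ in (t i.castSucc)..(t i.succ), F τ)|
        ≤ ∑ i : Fin N, |F (c i) * Δ' i - ∫ τ in (t i.castSucc)..(t i.succ), F τ| :=
          Finset.abs_sum_le_sum_abs _ _
      _ ≤ ∑ i : Fin N, ε₀ * Δ' i := by
          apply Finset.sum_le_sum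
          intro i _
          rw [abs_sub_comm]
          exact hcellint i
      _ = ε₀ * (β - α) := by rw [← Finset.mul_sum, hsumΔ]
  have hfinal : 2 * κ * ε₀ * (β - α) = η := by
    rw [hε₀def]; field_simp
  have hdprj : ∀ i : Fin N, (fun y : E3 => y - (inner ℝ y (e + w (c i)) / ‖e + w (c i)‖ ^ 2) • (e + w (c i)))
      = prj (unitOf (d i)) := fun i => funext (fun y => prj_unitOf (d i) y (hd i))
  rw [← hI]
  constructor
  · -- the triangles
    refine ⟨fun i => prj (unitOf (d i)) (P i), fun i => prj (unitOf (d i)) (Q i),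
      fun i => prj (unitOf (d i)) (S i), ?_, ?_, ?_, ?_⟩
    · intro i
      have hu := norm_unitOf (d i) (hd i)
      exact ⟨inner_axis_of_unit _ _ (hd i) (inner_prj _ _ hu), inner_axis_of_unit _ _ (hd i) (inner_prj _ _ hu),
        inner_axis_of_unit _ _ (hd i) (inner_prj _ _ hu)⟩
    · intro i
      exact cell_affine e a b p₀ (w (c i)) he ha hb hG (hwci i) (c i) _ _ θ (ζ i) (H i) hθ (hc i).1 (hc i).2
        (hcell i) (hH0 i)
    · rintro x ⟨τ, hτ, ρ, hρ, s, hs, rfl⟩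
      obtain ⟨i, hi1, hi2⟩ := exists_cell N t hmono α β ht0 htl hαβ τ hτ
      obtain ⟨y, hy, hxy⟩ := hcellcover i τ ρ s ⟨hi1, hi2⟩ hρ hs
      rw [Set.mem_iUnion]
      refine ⟨i, ?_⟩
      exact cyl_axis (d i) (P i) (Q i) (S i) _ (hd i) y hy s hxy
    · simp_rw [harea]
      have hclaim1' : ∀ i, V i - κ * ε₀ * Δ' i ≤
          κ * ((1 + 2 * θ) * H i ^ 2 / (2 * Real.sqrt (1 + ‖w (c i)‖ ^ 2))) * Δ' i ∧
          κ * ((1 + 2 * θ) * H i ^ 2 / (2 * Real.sqrt (1 + ‖w (c i)‖ ^ 2))) * Δ' i ≤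
            V i + κ * ε₀ * Δ' i := by
        intro i
        have h1 := (hclaim1 i).1
        have h2 := mul_pos (mul_pos hκ0 hε₀) (hΔ'0 i)
        exact ⟨by linarith, (hclaim1 i).2⟩
      have := final_sum V _ Δ' κ ε₀ I (β - α) hclaim1' hVsum hsumΔ
      rw [hfinal] at this
      rw [← hκ]
      exact this
  · -- the projected pieces
    simp_rw [hdprj]
    have hfin : ∀ i : Fin N, μHE[2] (convexHull ℝ {prj (unitOf (d i)) (P i), prj (unitOf (d i)) (Q i),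
        prj (unitOf (d i)) (S i)}) ≠ ⊤ := by
      intro i
      rw [muHE_conv3]
      exact ENNReal.ofReal_ne_top
    have hup : ∀ i : Fin N, prj (unitOf (d i)) '' {x : E3 | ∃ τ ∈ Set.Icc (t i.castSucc) (t i.succ),
        ∃ ρ ∈ Set.Icc 0 (R τ), ∃ s : ℝ, |s| ≤ L ∧ x = p₀ + ρ • (a + τ • b) + s • (e + w τ)} ⊆
        convexHull ℝ {prj (unitOf (d i)) (P i), prj (unitOf (d i)) (Q i), prj (unitOf (d i)) (S i)} := by
      rintro i _ ⟨x, ⟨τ, hτ, ρ, hρ, s, hs, rfl⟩, rfl⟩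
      obtain ⟨y, hy, hxy⟩ := hcellcover i τ ρ s hτ hρ hs
      exact prj_cyl (d i) (P i) (Q i) (S i) _ (hd i) y hy s hxy
    have hfin2 : ∀ i : Fin N, μHE[2] (prj (unitOf (d i)) '' {x : E3 | ∃ τ ∈ Set.Icc (t i.castSucc) (t i.succ),
        ∃ ρ ∈ Set.Icc 0 (R τ), ∃ s : ℝ, |s| ≤ L ∧ x = p₀ + ρ • (a + τ • b) + s • (e + w τ)}) ≠ ⊤ := by
      intro i
      exact ne_top_of_le_ne_top (hfin i) (measure_mono (hup i))
    have hbounds : ∀ i : Fin N, V i - κ * ε₀ * Δ' i ≤ (μHE[2] (prj (unitOf (d i)) '' {x : E3 |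
        ∃ τ ∈ Set.Icc (t i.castSucc) (t i.succ),
        ∃ ρ ∈ Set.Icc 0 (R τ), ∃ s : ℝ, |s| ≤ L ∧ x = p₀ + ρ • (a + τ • b) + s • (e + w τ)})).toReal ∧
        (μHE[2] (prj (unitOf (d i)) '' {x : E3 | ∃ τ ∈ Set.Icc (t i.castSucc) (t i.succ),
        ∃ ρ ∈ Set.Icc 0 (R τ), ∃ s : ℝ, |s| ≤ L ∧ x = p₀ + ρ • (a + τ • b) + s • (e + w τ)})).toReal ≤
          V i + κ * ε₀ * Δ' i := by
      intro i
      constructor
      · have h1 := low_tri_subset e a b p₀ (d i) L hL.le w R (t i.castSucc) (t i.succ) (Rl i) (hcell i)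
          (le_max_right _ _) (hRlcover i)
        have h2 := ENNReal.toReal_mono (hfin2 i) (measure_mono (μ := μHE[2]) h1)
        rw [hlowarea i] at h2
        exact le_trans (hclaim2 i) h2
      · have h2 := ENNReal.toReal_mono (hfin i) (measure_mono (μ := μHE[2]) (hup i))
        rw [harea i] at h2
        exact le_trans h2 (hclaim1 i).2
    have := final_sum V _ Δ' κ ε₀ I (β - α) hbounds hVsum hsumΔ
    rw [hfinal, hκ] at this
    exact this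

end Crest.Agent.S0328
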