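-- Statement S0329: see Crest/Templates/S0329.lean.txt
import Crest.Statements.S0329
import Crest.Agent.S0326
import Crest.Agent.Lib.Tetra.Para

set_option autoImplicit false
open MeasureTheory
open scoped ENNReal
open Crest Crest.GeometryTopology Crest.GeometryTopology.Convex

namespace Crest.Agent.S0329

open Tetra Set Metric

/-- The plane `x = 0`, scaled by `h` in the last coordinate. -/
private noncomputable def lift (h : ℝ) (x : E2) : E3 := !₂[0, x 0, h * x 1]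

private lemma lift_comb (h : ℝ) (c a b : E2) (s t : ℝ) :
    lift h (c + s • a + t • b) = lift h c + s • lift h a + t • lift h b := by
  apply vec3_ext
  · show (0 : ℝ) = 0 + s * 0 + t * 0
    ring
  · show c 0 + s * a 0 + t * b 0 = c 0 + s * a 0 + t * b 0
    ring
  · show h * (c 1 + s * a 1 + t * b 1) = h * c 1 + s * (h * a 1) + t * (h * b 1)
    ring

private lemma prj_comb (u c a b : E3) (s t : ℝ) :
    prj u (c + s • a + t • b) = prj u c + s • prj u a + t • prj u b := by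
  simp only [prj, inner_add_left, inner_smul_left, smul_sub, smul_smul, add_smul, conj_trivial]
  abel

private lemma area_parallelogram (a b : E2) (hb : ‖b‖ = ‖a‖) (hab : (inner ℝ a b : ℝ) = 0) :
    |a 0 * b 1 - a 1 * b 0| = ‖a‖ ^ 2 := by
  have h1 : (a 0 * b 1 - a 1 * b 0) ^ 2 = (‖a‖ ^ 2) ^ 2 := by
    have h2 : ‖a‖ ^ 2 = a 0 ^ 2 + a 1 ^ 2 := norm_sq_E2 a
    have h3 : ‖b‖ ^ 2 = b 0 ^ 2 + b 1 ^ 2 := norm_sq_E2 b
    rw [inner_E2] at hab
    rw [hb] at h3
    have h4 : (a 0 * b 1 - a 1 * b 0) ^ 2 + (a 0 * b 0 + a 1 * b 1) ^ 2 =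
        (a 0 ^ 2 + a 1 ^ 2) * (b 0 ^ 2 + b 1 ^ 2) := by ring
    rw [hab, ← h2, ← h3] at h4
    nlinarith
  have h5 := (sq_eq_sq_iff_abs_eq_abs _ _).mp h1
  rw [h5, abs_of_nonneg (by positivity)]

set_option maxHeartbeats 1000000 in
/-- Let h, M > 0, D ⊂ ℝ² be compact with Lebesgue-null boundary, and V : ℝ² → ℝ² be C¹ on an open set containing D with tr DV(p) = 0 and −1/M² < det DV(p) < 0 for p ∈ D. For every ε > 0 the set of points (x, p₁ + x V₁(p), h (p₂ + x V₂(p))) ∈ ℝ³ with p ∈ D, −M ≤ x ≤ M is covered by finitely many cylinders Bᵢ + ℝ uᵢ, ‖uᵢ‖ = 1, with bases Bᵢ bounded relatively open subsets of the planes uᵢ^⊥ and ∑ᵢ area(Bᵢ) ≤ h ∫_D (1 + V₁² + h² V₂²)^(−1/2) + ε (areas: normalised 2-dimensional Hausdorff measure). -/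
theorem result
    (h M : ℝ) (hh : 0 < h) (hM : 0 < M) (D : Set (EuclideanSpace ℝ (Fin 2))) (hD : IsCompact D)
    (hbd : volume (frontier D) = 0)
    (V : EuclideanSpace ℝ (Fin 2) → EuclideanSpace ℝ (Fin 2)) (U : Set (EuclideanSpace ℝ (Fin 2)))
    (hU : IsOpen U) (hDU : D ⊆ U) (hV : ContDiffOn ℝ 1 V U)
    (htr : ∀ p ∈ D, LinearMap.trace ℝ _ (fderiv ℝ V p).toLinearMap = 0)
    (hdet : ∀ p ∈ D, -(M ^ 2)⁻¹ < LinearMap.det (fderiv ℝ V p).toLinearMap ∧
      LinearMap.det (fderiv ℝ V p).toLinearMap < 0)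
    (ε : ℝ) (hε : 0 < ε) :
    ∃ (k : ℕ) (u : Fin k → EuclideanSpace ℝ (Fin 3)) (B : Fin k → Set (EuclideanSpace ℝ (Fin 3))),
      (∀ i, ‖u i‖ = 1) ∧
      (∀ i, Bornology.IsBounded (B i) ∧ ∃ O : Set (EuclideanSpace ℝ (Fin 3)), IsOpen O ∧
        B i = O ∩ {x | inner ℝ x (u i) = 0}) ∧
      {z : EuclideanSpace ℝ (Fin 3) | ∃ p ∈ D, ∃ x : ℝ, abs x ≤ M ∧
          z = !₂[x, p 0 + x * V p 0, h * (p 1 + x * V p 1)]} ⊆
        ⋃ i, {z : EuclideanSpace ℝ (Fin 3) | ∃ y ∈ B i, ∃ τ : ℝ, z = y + τ • u i} ∧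
      ∑ i, (μHE[2] (B i)).toReal ≤
        h * (∫ p in D, 1 / Real.sqrt (1 + (V p 0) ^ 2 + h ^ 2 * (V p 1) ^ 2)) + ε := by
  obtain ⟨I, hI⟩ : ∃ I, I = ∫ p in D, 1 / Real.sqrt (1 + (V p 0) ^ 2 + h ^ 2 * (V p 1) ^ 2) := ⟨_, rfl⟩
  rw [← hI]
  have hI0 : 0 ≤ I := by
    rw [hI]
    apply integral_nonneg
    intro p
    positivity
  obtain ⟨ε₁, hε₁def⟩ : ∃ ε₁, ε₁ = min 1 (ε / (2 * h)) := ⟨_, rfl⟩
  have hε₁ : 0 < ε₁ := by rw [hε₁def]; exact lt_min one_pos (by positivity)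
  have hε₁1 : ε₁ ≤ 1 := by rw [hε₁def]; exact min_le_left _ _
  have hε₁h : h * ε₁ ≤ ε / 2 := by
    have : ε₁ ≤ ε / (2 * h) := by rw [hε₁def]; exact min_le_right _ _
    calc h * ε₁ ≤ h * (ε / (2 * h)) := mul_le_mul_of_nonneg_left this hh.le
      _ = ε / 2 := by field_simp
  obtain ⟨η, hηdef⟩ : ∃ η, η = min 1 (ε / (16 * h * (I + 1))) := ⟨_, rfl⟩
  have hη : 0 < η := by rw [hηdef]; exact lt_min one_pos (by positivity)
  have hη1 : η ≤ 1 := by rw [hηdef]; exact min_le_left _ _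
  have hηh : 8 * η * (h * (I + 1)) ≤ ε / 2 := by
    have : η ≤ ε / (16 * h * (I + 1)) := by rw [hηdef]; exact min_le_right _ _
    calc 8 * η * (h * (I + 1)) ≤ 8 * (ε / (16 * h * (I + 1))) * (h * (I + 1)) := by
          apply mul_le_mul_of_nonneg_right _ (by positivity)
          linarith
      _ = ε / 2 := by field_simp; ring
  obtain ⟨k, c, a, b, g, hsq, hcov, hsum⟩ := S0326.result D hD V U hU hDU hV M h hM hh htr
    (fun p hp => ⟨(hdet p hp).1, (hdet p hp).2.le⟩) ε₁ hε₁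
  rw [← hI] at hsum
  -- the axes
  let d : Fin k → E3 := fun i => !₂[1, g i 0, h * g i 1]
  have hd : ∀ i, d i ≠ 0 := by
    intro i h0
    have : d i 0 = 1 := rfl
    rw [h0] at this
    exact zero_ne_one this
  have hdn : ∀ i, ‖d i‖ = Real.sqrt (1 + g i 0 ^ 2 + h ^ 2 * g i 1 ^ 2) := by
    intro i
    rw [← Real.sqrt_sq (norm_nonneg (d i)), norm_sq_E3]
    congr 1
    show (1 : ℝ) ^ 2 + g i 0 ^ 2 + (h * g i 1) ^ 2 = _
    ring
  have hu : ∀ i, ‖unitOf (d i)‖ = 1 := fun i => norm_unitOf _ (hd i)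
  have hgram : ∀ i, gram (prj (unitOf (d i)) (lift h (a i))) (prj (unitOf (d i)) (lift h (b i))) =
      h * (‖a i‖ ^ 2 / Real.sqrt (1 + g i 0 ^ 2 + h ^ 2 * g i 1 ^ 2)) := by
    intro i
    rw [gram_prj _ _ _ (hu i), unitOf, det3_smul_left, abs_mul, abs_of_nonneg (by positivity), ← hdn]
    have e : det3 (d i) (lift h (a i)) (lift h (b i)) = h * (a i 0 * b i 1 - a i 1 * b i 0) := by
      show _ * (a i 0 * (h * b i 1) - (h * a i 1) * b i 0) + _ * ((h * a i 1) * 0 - 0 * (h * b i 1)) +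
        _ * (0 * b i 0 - a i 0 * 0) = _
      show (1 : ℝ) * (a i 0 * (h * b i 1) - (h * a i 1) * b i 0) + _ * ((h * a i 1) * 0 - 0 * (h * b i 1)) +
        _ * (0 * b i 0 - a i 0 * 0) = _
      ring
    rw [e, abs_mul, abs_of_pos hh, area_parallelogram _ _ (hsq i).2.1 (hsq i).2.2]
    have hdpos : 0 < ‖d i‖ := norm_pos_iff.mpr (hd i)
    field_simp
  have hgpos : ∀ i, 0 < gram (prj (unitOf (d i)) (lift h (a i))) (prj (unitOf (d i)) (lift h (b i))) := by
    intro i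
    rw [hgram]
    have h1 : 0 < ‖a i‖ := norm_pos_iff.mpr (hsq i).1
    have h2 : 0 < Real.sqrt (1 + g i 0 ^ 2 + h ^ 2 * g i 1 ^ 2) := Real.sqrt_pos.mpr (by positivity)
    positivity
  have hopen := fun i => open_para (unitOf (d i)) (prj (unitOf (d i)) (lift h (c i)))
    (prj (unitOf (d i)) (lift h (a i))) (prj (unitOf (d i)) (lift h (b i))) (hu i)
    (inner_prj _ _ (hu i)) (inner_prj _ _ (hu i)) (inner_prj _ _ (hu i)) (hgpos i) η hη
  choose B hB1 hB2 hB3 hB4 using hopen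
  refine ⟨k, fun i => unitOf (d i), B, hu, fun i => ⟨hB1 i, hB2 i⟩, ?_, ?_⟩
  · rintro z ⟨p, hp, x, hx, rfl⟩
    have hmem : ((x, p + x • V p) : ℝ × E2) ∈
        {z : ℝ × E2 | ∃ p ∈ D, |z.1| ≤ M ∧ z.2 = p + z.1 • V p} := ⟨p, hp, hx, rfl⟩
    obtain ⟨i, s, hs, t, ht, hst⟩ := mem_iUnion.mp (hcov hmem)
    simp only at hst
    refine mem_iUnion.mpr ⟨i, prj (unitOf (d i)) (lift h (c i + s • a i + t • b i)), ?_,
      inner ℝ (lift h (c i + s • a i + t • b i)) (unitOf (d i)) + x * ‖d i‖, ?_⟩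
    · apply hB3 i
      refine ⟨s, hs, t, ht, ?_⟩
      rw [lift_comb, prj_comb]
    · have hzd : (!₂[x, p 0 + x * V p 0, h * (p 1 + x * V p 1)] : E3) =
          lift h (c i + s • a i + t • b i) + x • d i := by
        have h0 : p 0 + x * V p 0 = (c i + s • a i + t • b i) 0 + x * g i 0 := by
          have := congrArg (fun w : E2 => w 0) hst
          simpa using this
        have h1 : p 1 + x * V p 1 = (c i + s • a i + t • b i) 1 + x * g i 1 := by
          have := congrArg (fun w : E2 => w 1) hst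
          simpa using this
        apply vec3_ext
        · show x = 0 + x * 1
          ring
        · show p 0 + x * V p 0 = (c i + s • a i + t • b i) 0 + x * g i 0
          exact h0
        · show h * (p 1 + x * V p 1) = h * (c i + s • a i + t • b i) 1 + x * (h * g i 1)
          rw [h1]
          ring
      have hdu : d i = ‖d i‖ • unitOf (d i) := by
        have hn : ‖d i‖ ≠ 0 := (norm_pos_iff.mpr (hd i)).ne'
        rw [unitOf, smul_smul, mul_inv_cancel₀ hn, one_smul]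
      rw [hzd]
      conv_lhs => rw [hdu]
      rw [prj, add_smul, smul_smul]
      abel
  · have hstep : ∀ i, (μHE[2] (B i)).toReal ≤ (1 + 2 * η) ^ 2 * (h * (‖a i‖ ^ 2 /
        Real.sqrt (1 + g i 0 ^ 2 + h ^ 2 * g i 1 ^ 2))) := by
      intro i
      have := hB4 i
      rwa [hgram] at this
    calc _ ≤ ∑ i, (1 + 2 * η) ^ 2 * (h * (‖a i‖ ^ 2 /
          Real.sqrt (1 + g i 0 ^ 2 + h ^ 2 * g i 1 ^ 2))) := Finset.sum_le_sum (fun i _ => hstep i)
      _ = (1 + 2 * η) ^ 2 * (h * ∑ i, ‖a i‖ ^ 2 / Real.sqrt (1 + g i 0 ^ 2 + h ^ 2 * g i 1 ^ 2)) := by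
          rw [Finset.mul_sum, Finset.mul_sum]
      _ ≤ (1 + 2 * η) ^ 2 * (h * (I + ε₁)) := by
          apply mul_le_mul_of_nonneg_left _ (by positivity)
          exact mul_le_mul_of_nonneg_left hsum hh.le
      _ ≤ (1 + 8 * η) * (h * (I + ε₁)) := by
          apply mul_le_mul_of_nonneg_right _ (by positivity)
          nlinarith
      _ ≤ h * I + ε := by
          have h1 : 8 * η * (h * (I + ε₁)) ≤ 8 * η * (h * (I + 1)) := by
            apply mul_le_mul_of_nonneg_left _ (by positivity)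
            apply mul_le_mul_of_nonneg_left _ hh.le
            linarith
          nlinarith

end Crest.Agent.S0329
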