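import Crest.Statements.S0423
import Crest.Agent.Lib.TruncExp

set_option autoImplicit false
open Crest Crest.AlgGeometry

namespace Crest.Agent.S0423

open Crest.Agent.Lib.TruncExp in
/-- For independent mean-one exponential random variables `X_1, …, X_N` (written as an integral over the positive orthant against the density `exp (-(x_1 + ⋯ + x_N))`), real coefficients `a_1, …, a_N` summing to zero, and the weight `g = truncExpWeight`, the quantity `(e^{4/3} / (4/3)) · E[g(4/3 + a_1 X_1 + ⋯ + a_N X_N)]` has supremum over all `N ≥ 1` and all such `a` exactly `(3/4) e^{4/3} − e/3`: it never exceeds this value, and comes within any `ε > 0` of it for some `N` and `a`. -/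
theorem result :
    (∀ (N : ℕ) (a : Fin N → ℝ), 1 ≤ N → ∑ i, a i = 0 →
      Real.exp (4 / 3) / (4 / 3) *
          ∫ x in Set.pi Set.univ (fun _ : Fin N => Set.Ioi (0 : ℝ)),
            Crest.AlgGeometry.truncExpWeight (4 / 3 + ∑ i, a i * x i) * Real.exp (-∑ i, x i)
        ≤ 3 / 4 * Real.exp (4 / 3) - Real.exp 1 / 3) ∧
    (∀ ε : ℝ, 0 < ε → ∃ (N : ℕ) (a : Fin N → ℝ), 1 ≤ N ∧ ∑ i, a i = 0 ∧
      3 / 4 * Real.exp (4 / 3) - Real.exp 1 / 3 - ε <
        Real.exp (4 / 3) / (4 / 3) *
          ∫ x in Set.pi Set.univ (fun _ : Fin N => Set.Ioi (0 : ℝ)),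
            Crest.AlgGeometry.truncExpWeight (4 / 3 + ∑ i, a i * x i) * Real.exp (-∑ i, x i)) := by
  have hval : ∀ (N : ℕ) (a : Fin N → ℝ),
      ∫ x in Set.pi Set.univ (fun _ : Fin N => Set.Ioi (0 : ℝ)),
        Crest.AlgGeometry.truncExpWeight (4 / 3 + ∑ i, a i * x i) * Real.exp (-∑ i, x i) =
      iter (List.ofFn a) g (4 / 3) :=
    fun N a => orthant_eq_iter continuous_g g_abs_le N a (4 / 3)
  have hconst : Real.exp (4 / 3) / (4 / 3) * (1 - 4 / 9 * Real.exp (-(1 / 3))) =
      3 / 4 * Real.exp (4 / 3) - Real.exp 1 / 3 := by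
    have h : Real.exp (4 / 3) * Real.exp (-(1 / 3)) = Real.exp 1 := by
      rw [← Real.exp_add]; norm_num
    rw [← h]; ring
  have hCpos : 0 < Real.exp (4 / 3) / (4 / 3) := by positivity
  constructor
  · intro N a _ hsum
    rw [hval]
    have hl : (List.ofFn a).sum = 0 := by rw [List.sum_ofFn]; exact hsum
    have h1 := iter_g_le hl
    calc Real.exp (4 / 3) / (4 / 3) * iter (List.ofFn a) g (4 / 3)
        ≤ Real.exp (4 / 3) / (4 / 3) * (1 - 4 / 9 * Real.exp (-(1 / 3))) :=
          mul_le_mul_of_nonneg_left h1 hCpos.le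
      _ = _ := hconst
  · intro ε hε
    set C := Real.exp (4 / 3) / (4 / 3) with hC
    obtain ⟨n, hn⟩ := exists_nat_gt (2 * C / ε)
    have hnR : (0 : ℝ) < n := lt_trans (by positivity) hn
    have hnpos : 0 < n := by exact_mod_cast hnR
    refine ⟨n + 1, Fin.cons 2 (fun _ => -(2 / (n : ℝ))), by omega, ?_, ?_⟩
    · rw [Fin.sum_univ_succ]
      simp only [Fin.cons_zero, Fin.cons_succ, Finset.sum_const, Finset.card_univ,
        Fintype.card_fin, nsmul_eq_mul]
      field_simp
      ring
    · rw [hval]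
      have hlist : List.ofFn (Fin.cons 2 (fun _ => -(2 / (n : ℝ))) : Fin (n + 1) → ℝ) =
          2 :: List.replicate n (-(2 / (n : ℝ))) := by
        rw [List.ofFn_succ]
        simp [List.ofFn_const]
      rw [hlist]
      have h1 := iter_family_ge hnpos
      have h2 : C * (2 / (n : ℝ)) < ε := by
        rw [div_lt_iff₀ hε] at hn
        rw [mul_div_assoc', div_lt_iff₀ hnR]
        linarith
      have h3 := mul_le_mul_of_nonneg_left h1 hCpos.le
      rw [mul_sub, hconst] at h3
      linarith

end Crest.Agent.S0423
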